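import Vale.Agent.P004.H253.Tw1

/-!
# P004, module D (twisted bilinear estimate), part 2: the dual sum
-/

open Real MeasureTheory Set Filter Topology
open scoped ENNReal NumberTheorySymbols ArithmeticFunction.Moebius

namespace P004

namespace Tw

/-! ### the decomposition `n = g² q` -/

open Classical in
/-- the square-free part -/
noncomputable def qf (n : ℕ) : ℕ :=
  if h : 0 < n then (Nat.sq_mul_squarefree_of_pos h).choose else 1

open Classical in
/-- the square root of the square part -/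
noncomputable def gg (n : ℕ) : ℕ :=
  if h : 0 < n then (Nat.sq_mul_squarefree_of_pos h).choose_spec.choose else 1

lemma qf_sq (n : ℕ) : Squarefree (qf n) := by
  unfold qf
  split_ifs with h
  · exact (Nat.sq_mul_squarefree_of_pos h).choose_spec.choose_spec.2.2.2
  · exact squarefree_one

lemma gg_ne_zero (n : ℕ) : gg n ≠ 0 := by
  unfold gg
  split_ifs with h
  · exact (Nat.sq_mul_squarefree_of_pos h).choose_spec.choose_spec.2.1.ne'
  · exact one_ne_zero

lemma gg_mul {n : ℕ} (hn : n ≠ 0) : gg n * gg n * qf n = n := by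
  unfold gg qf
  rw [dif_pos (Nat.pos_of_ne_zero hn), dif_pos (Nat.pos_of_ne_zero hn)]
  have := (Nat.sq_mul_squarefree_of_pos (Nat.pos_of_ne_zero hn)).choose_spec.choose_spec.2.2.1
  rw [← sq]
  exact this

lemma sqfree_unique {g q g' q' : ℕ} (hg : g ≠ 0) (hq : Squarefree q) (hg' : g' ≠ 0)
    (hq' : Squarefree q') (h : g * g * q = g' * g' * q') : g = g' ∧ q = q' := by
  have hq0 := hq.ne_zero
  have hq0' := hq'.ne_zero
  have key : ∀ p, g.factorization p = g'.factorization p ∧ q.factorization p = q'.factorization p := by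
    intro p
    have h1 : (g * g * q).factorization p = (g' * g' * q').factorization p := by rw [h]
    rw [Nat.factorization_mul (Nat.mul_ne_zero hg hg) hq0,
      Nat.factorization_mul (Nat.mul_ne_zero hg' hg') hq0', Nat.factorization_mul hg hg,
      Nat.factorization_mul hg' hg'] at h1
    simp only [Finsupp.add_apply] at h1
    have h2 := (Nat.squarefree_iff_factorization_le_one hq0).1 hq p
    have h3 := (Nat.squarefree_iff_factorization_le_one hq0').1 hq' p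
    omega
  exact ⟨Nat.eq_of_factorization_eq hg hg' fun p => (key p).1,
    Nat.eq_of_factorization_eq hq0 hq0' fun p => (key p).2⟩

lemma gg_eq {g q : ℕ} (hg : g ≠ 0) (hq : Squarefree q) : gg (g * g * q) = g := by
  have h0 : g * g * q ≠ 0 := Nat.mul_ne_zero (Nat.mul_ne_zero hg hg) hq.ne_zero
  exact (sqfree_unique (gg_ne_zero _) (qf_sq _) hg hq (gg_mul h0)).1

lemma qf_eq {g q : ℕ} (hg : g ≠ 0) (hq : Squarefree q) : qf (g * g * q) = q := by
  have h0 : g * g * q ≠ 0 := Nat.mul_ne_zero (Nat.mul_ne_zero hg hg) hq.ne_zero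
  exact (sqfree_unique (gg_ne_zero _) (qf_sq _) hg hq (gg_mul h0)).2

lemma gg_dvd {n : ℕ} (hn : n ≠ 0) : gg n ∣ n := by
  conv_rhs => rw [← gg_mul hn]
  rw [mul_assoc]
  exact dvd_mul_right _ _

lemma qf_dvd {n : ℕ} (hn : n ≠ 0) : qf n ∣ n := by
  conv_rhs => rw [← gg_mul hn]
  exact dvd_mul_left _ _

lemma gg_le {n : ℕ} (hn : n ≠ 0) : gg n ≤ n := Nat.le_of_dvd (Nat.pos_of_ne_zero hn) (gg_dvd hn)

/-- admissible `n` -/
def Adm (n : ℕ) : Prop := n ≠ 0 ∧ ∀ p : ℕ, p.Prime → p ∣ qf n → p % 4 = 1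

/-- an odd `n` with even exponents at the primes `≡ 3 mod 4` is admissible -/
lemma adm_of {n : ℕ} (hn : n ≠ 0) (hodd : ¬ 2 ∣ n)
    (h : ∀ p : ℕ, p.Prime → p % 4 = 3 → Even (n.factorization p)) : Adm n := by
  refine ⟨hn, fun p hp hpq => ?_⟩
  have hpn : p ∣ n := hpq.trans (qf_dvd hn)
  have hp2 : p ≠ 2 := by
    rintro rfl
    exact hodd hpn
  have h1 : p % 2 = 1 := (Nat.Prime.eq_two_or_odd hp).resolve_left hp2
  have h2 : p % 4 = 1 ∨ p % 4 = 3 := by omega
  rcases h2 with h2 | h2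
  · exact h2
  · exfalso
    have h3 := h p hp h2
    have h4 : n.factorization p = 2 * (gg n).factorization p + (qf n).factorization p := by
      conv_lhs => rw [← gg_mul hn]
      rw [Nat.factorization_mul (Nat.mul_ne_zero (gg_ne_zero n) (gg_ne_zero n)) (qf_sq n).ne_zero,
        Nat.factorization_mul (gg_ne_zero n) (gg_ne_zero n)]
      simp only [Finsupp.add_apply]
      ring
    have h5 := (Nat.squarefree_iff_factorization_le_one (qf_sq n).ne_zero).1 (qf_sq n) p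
    have h6 := (hp.dvd_iff_one_le_factorization (qf_sq n).ne_zero).1 hpq
    rw [h4] at h3
    rw [Nat.even_iff] at h3
    omega

/-- `ca n ≠ 0` forces `n` odd -/
lemma odd_of_ca (hC : StCoef) {n : ℕ} (h : ca n ≠ 0) : ¬ 2 ∣ n := by
  intro h2
  apply h
  apply hC.mod_four
  omega

/-- `ca n ≠ 0` forces even exponents at the primes `≡ 3 mod 4` -/
lemma even_of_ca (hC : StCoef) {n : ℕ} (h : ca n ≠ 0) {p : ℕ} (hp : p.Prime) (hp3 : p % 4 = 3) :
    Even (n.factorization p) := by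
  have hn : n ≠ 0 := by
    rintro rfl
    exact h hC.zero
  by_contra hev
  rw [Nat.not_even_iff_odd] at hev
  apply h
  have h1 : n = p ^ n.factorization p * (n / p ^ n.factorization p) :=
    (Nat.ordProj_mul_ordCompl_eq_self n p).symm
  have h2 : Nat.Coprime (p ^ n.factorization p) (n / p ^ n.factorization p) :=
    Nat.Coprime.pow_left _ (Nat.coprime_ordCompl hp hn)
  rw [h1, hC.mul _ _ h2]
  have h3 : ca (p ^ n.factorization p) = 0 := by
    apply hC.mod_four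
    obtain ⟨k, hk⟩ := hev
    have e1 : p ^ 2 % 4 = 1 := by
      rw [Nat.pow_mod, hp3]
    have e2 : (p ^ 2) ^ k % 4 = 1 := by
      rw [Nat.pow_mod, e1, one_pow, Nat.one_mod]
    rw [hk, pow_add, pow_mul, pow_one, Nat.mul_mod, e2, hp3]
    norm_num
  rw [h3, zero_mul]

lemma adm_mul (hC : StCoef) {t n₁ n₂ : ℕ} (ht : Odd t)
    (ht3 : ∀ p : ℕ, p.Prime → p % 4 = 3 → Even (t.factorization p)) (h₁ : ca n₁ ≠ 0)
    (h₂ : ca n₂ ≠ 0) : Adm (t * (n₁ * n₂)) := by
  have hn₁ : n₁ ≠ 0 := by rintro rfl; exact h₁ hC.zero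
  have hn₂ : n₂ ≠ 0 := by rintro rfl; exact h₂ hC.zero
  have ht0 : t ≠ 0 := by rintro rfl; simp at ht
  refine adm_of (Nat.mul_ne_zero ht0 (Nat.mul_ne_zero hn₁ hn₂)) ?_ ?_
  · intro h
    rcases (Nat.prime_two.dvd_mul).1 h with h | h
    · exact (Nat.not_even_iff_odd.2 ht) (even_iff_two_dvd.2 h)
    · rcases (Nat.prime_two.dvd_mul).1 h with h | h
      · exact odd_of_ca hC h₁ h
      · exact odd_of_ca hC h₂ h
  · intro p hp hp3
    rw [Nat.factorization_mul ht0 (Nat.mul_ne_zero hn₁ hn₂), Nat.factorization_mul hn₁ hn₂]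
    simp only [Finsupp.add_apply]
    exact (ht3 p hp hp3).add ((even_of_ca hC h₁ hp hp3).add (even_of_ca hC h₂ hp hp3))

/-! ### the dual terms -/

/-- the `j`-th dual term for `n = g² q` -/
noncomputable def Tj (H : ℝ) (j n : ℕ) : ℝ :=
  ∑ d ∈ (gg n).divisors, (μ d : ℝ) / (d * √(qf n : ℝ)) *
    (if d ∣ j then chi (j : ℤ) (qf n) * Gk ((j : ℝ) * H / ((d : ℝ) ^ 2 * qf n)) else 0)

lemma off_eq_tj (hP : StPois) {n : ℕ} (hn : Adm n) {H : ℝ} (hH : 0 < H) :
    Off H n = 2 * H * ∑' j : ℕ, Tj H (j + 1) n := by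
  have h := off_eq hP (gg_ne_zero n) (qf_sq n) hn.2 hH
  rw [gg_mul hn.1] at h
  exact h

lemma abs_mu_le (d : ℕ) : |(μ d : ℝ)| ≤ 1 := by
  have := ArithmeticFunction.abs_moebius_le_one (n := d)
  exact_mod_cast this

/-- a bound for `Tj` in terms of a bound for the kernel -/
lemma abs_Tj_le {n : ℕ} (hn : n ≠ 0) (H : ℝ) (j : ℕ) {B : ℝ} (hB0 : 0 ≤ B)
    (hB : ∀ d ∈ (gg n).divisors, Gk ((j : ℝ) * H / ((d : ℝ) ^ 2 * qf n)) ≤ B) :
    |Tj H j n| ≤ n * B := by
  unfold Tj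
  have h1 : ∀ d ∈ (gg n).divisors, |(μ d : ℝ) / (d * √(qf n : ℝ)) *
      (if d ∣ j then chi (j : ℤ) (qf n) * Gk ((j : ℝ) * H / ((d : ℝ) ^ 2 * qf n)) else 0)| ≤ B := by
    intro d hd
    have hd1 : (1 : ℝ) ≤ d := by exact_mod_cast Nat.pos_of_mem_divisors hd
    have hq1 : (1 : ℝ) ≤ √(qf n : ℝ) := by
      rw [Real.one_le_sqrt]
      exact_mod_cast Nat.pos_of_ne_zero (qf_sq n).ne_zero
    rw [abs_mul, abs_div, abs_of_pos (by positivity : (0 : ℝ) < d * √(qf n : ℝ))]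
    have e1 : |(μ d : ℝ)| / (d * √(qf n : ℝ)) ≤ 1 := by
      rw [div_le_one (by positivity)]
      have := abs_mu_le d
      nlinarith
    have e2 : |(if d ∣ j then chi (j : ℤ) (qf n) *
        Gk ((j : ℝ) * H / ((d : ℝ) ^ 2 * qf n)) else 0)| ≤ B := by
      split_ifs
      · rw [abs_mul, abs_of_nonneg (gk_nonneg _)]
        refine le_trans ?_ (hB d hd)
        exact mul_le_of_le_one_left (gk_nonneg _) (H1.abs_chi_le _ _)
      · rw [abs_zero]; exact hB0
    calc _ ≤ 1 * B := mul_le_mul e1 e2 (abs_nonneg _) (by norm_num)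
      _ = B := one_mul B
  refine (Finset.abs_sum_le_sum_abs _ _).trans ?_
  refine (Finset.sum_le_card_nsmul _ _ _ h1).trans ?_
  rw [nsmul_eq_mul]
  have h2 : ((gg n).divisors.card : ℝ) ≤ n := by
    have : (gg n).divisors.card ≤ n := (Nat.card_divisors_le_self _).trans (gg_le hn)
    exact_mod_cast this
  exact mul_le_mul_of_nonneg_right h2 hB0

lemma dq_le {n d : ℕ} (hn : n ≠ 0) (hd : d ∈ (gg n).divisors) :
    0 < (d : ℝ) ^ 2 * qf n ∧ (d : ℝ) ^ 2 * qf n ≤ n := by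
  have hd0 : 0 < d := Nat.pos_of_mem_divisors hd
  have hq0 : 0 < qf n := Nat.pos_of_ne_zero (qf_sq n).ne_zero
  refine ⟨by positivity, ?_⟩
  have h1 : d ≤ gg n := Nat.divisor_le hd
  have h2 : d ^ 2 * qf n ≤ n := by
    calc d ^ 2 * qf n ≤ (gg n) ^ 2 * qf n := Nat.mul_le_mul_right _ (Nat.pow_le_pow_left h1 2)
      _ = gg n * gg n * qf n := by ring
      _ = n := gg_mul hn
  exact_mod_cast h2

/-- `∑_j |Tj|` converges -/
lemma abs_Tj_le_sq (hK : StKer) : ∃ K : ℝ, 0 < K ∧ ∀ {n : ℕ}, n ≠ 0 → ∀ {H : ℝ}, 0 < H →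
    ∀ j : ℕ, |Tj H (j + 1) n| ≤ n * (K * (n / H) ^ 2 * (1 / ((j : ℝ) + 1) ^ 2)) := by
  obtain ⟨K, hK0, hKd⟩ := H1.Gk_decay hK
  refine ⟨K, hK0, fun {n} hn {H} hH j => ?_⟩
  have hn' : (0 : ℝ) < n := by exact_mod_cast Nat.pos_of_ne_zero hn
  refine abs_Tj_le hn H (j + 1) (by positivity) fun d hd => ?_
  obtain ⟨h1, h2⟩ := dq_le hn hd
  refine (hKd _ (by positivity)).trans ?_
  have e : K / ((((j + 1 : ℕ) : ℝ)) * H / ((d : ℝ) ^ 2 * qf n)) ^ 2 =
      K * (((d : ℝ) ^ 2 * qf n) / H) ^ 2 * (1 / ((j : ℝ) + 1) ^ 2) := by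
    push_cast
    field_simp
  rw [e]
  gcongr

lemma summable_inv_sq : Summable fun j : ℕ => 1 / ((j : ℝ) + 1) ^ 2 := by
  have h := (summable_nat_add_iff 1).2 (Real.summable_one_div_nat_pow.2 (by norm_num : 1 < 2))
  refine h.congr fun j => ?_
  push_cast
  rfl

lemma summable_Tj (hK : StKer) {n : ℕ} (hn : n ≠ 0) {H : ℝ} (hH : 0 < H) :
    Summable fun j : ℕ => Tj H (j + 1) n := by
  obtain ⟨K, hK0, h⟩ := abs_Tj_le_sq hK
  refine Summable.of_norm_bounded (g := fun j : ℕ => (n : ℝ) * (K * (n / H) ^ 2 *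
    (1 / ((j : ℝ) + 1) ^ 2))) ?_ fun j => h hn hH j
  exact (summable_inv_sq.mul_left _).mul_left _

/-! ### `Toff` as a sum of `Off` -/

/-- the coefficient `a_{n₁} a_{n₂} e^{-π(n₁ u₁ + n₂ u₂)}` -/
noncomputable def cc (u₁ u₂ : ℝ) (p : ℕ × ℕ) : ℝ :=
  (ca p.1 * ca p.2) * Real.exp (-π * (p.1 * u₁ + p.2 * u₂))

/-- the weight of one variable -/
noncomputable def c1 (u : ℝ) (n : ℕ) : ℝ := (ca n : ℝ) * Real.exp (-π * n * u)

lemma cc_eq (u₁ u₂ : ℝ) (p : ℕ × ℕ) : cc u₁ u₂ p = c1 u₁ p.1 * c1 u₂ p.2 := by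
  unfold cc c1
  rw [show -π * ((p.1 : ℝ) * u₁ + p.2 * u₂) = -π * p.1 * u₁ + -π * p.2 * u₂ by ring, Real.exp_add]
  ring

lemma abs_c1_le (hC : StCoef) (u : ℝ) (n : ℕ) :
    |c1 u n| ≤ (n : ℝ) ^ 2 * Real.exp (-(π * u) * n) := by
  unfold c1
  rw [abs_mul, abs_of_pos (Real.exp_pos _), show -π * n * u = -(π * u) * n by ring]
  exact mul_le_mul_of_nonneg_right (H1.abs_ca_le hC n) (Real.exp_pos _).le

lemma summable_c1 (hC : StCoef) {u : ℝ} (hu : 0 < u) (k : ℕ) :
    Summable fun n : ℕ => |c1 u n| * (n : ℝ) ^ k := by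
  have h1 := Real.summable_pow_mul_exp_neg_nat_mul (k + 2) (r := π * u) (by positivity)
  refine Summable.of_nonneg_of_le (fun n => by positivity) (fun n => ?_) h1
  calc |c1 u n| * (n : ℝ) ^ k ≤ ((n : ℝ) ^ 2 * Real.exp (-(π * u) * n)) * (n : ℝ) ^ k :=
        mul_le_mul_of_nonneg_right (abs_c1_le hC u n) (by positivity)
    _ = (n : ℝ) ^ (k + 2) * Real.exp (-(π * u) * n) := by ring

lemma summable_cc (hC : StCoef) {u₁ u₂ : ℝ} (h₁ : 0 < u₁) (h₂ : 0 < u₂) (k : ℕ) :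
    Summable fun p : ℕ × ℕ => |cc u₁ u₂ p| * ((p.1 : ℝ) * p.2) ^ k := by
  have h := (summable_c1 hC h₁ k).mul_of_nonneg (summable_c1 hC h₂ k)
    (fun n => by positivity) (fun n => by positivity)
  refine h.congr fun p => ?_
  rw [cc_eq, abs_mul, mul_pow]
  ring

lemma theta_mul (hC : StCoef) (h : ℤ) {u₁ u₂ : ℝ} (h₁ : 0 < u₁) (h₂ : 0 < u₂) :
    theta h u₁ * theta h u₂ = 16 * ∑' p : ℕ × ℕ, cc u₁ u₂ p * chi h (p.1 * p.2) := by
  have hs : ∀ {u : ℝ}, 0 < u → Summable fun n : ℕ => ‖c1 u n * chi h n‖ := fun {u} hu => by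
    have := summable_c1 hC hu 0
    refine Summable.of_nonneg_of_le (fun n => norm_nonneg _) (fun n => ?_) this
    rw [norm_mul, Real.norm_eq_abs, Real.norm_eq_abs, pow_zero, mul_one]
    exact mul_le_of_le_one_right (abs_nonneg _) (H1.abs_chi_le _ _)
  have ht : ∀ u : ℝ, theta h u = 4 * ∑' n : ℕ, c1 u n * chi h n := fun u => by
    unfold theta c1
    congr 1
    exact tsum_congr fun n => by ring
  rw [ht, ht]
  have e : (4 * ∑' n : ℕ, c1 u₁ n * chi h n) * (4 * ∑' n : ℕ, c1 u₂ n * chi h n) =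
      16 * ((∑' n : ℕ, c1 u₁ n * chi h n) * ∑' n : ℕ, c1 u₂ n * chi h n) := by ring
  rw [e, tsum_mul_tsum_of_summable_norm (hs h₁) (hs h₂)]
  congr 1
  refine tsum_congr fun p => ?_
  rw [cc_eq]
  by_cases h1 : p.1 = 0
  · simp [h1, c1, hC.zero]
  by_cases h2 : p.2 = 0
  · simp [h2, c1, hC.zero]
  rw [H1.chi_mul h h1 h2]
  ring

lemma rho_nonneg (n : ℕ) : 0 ≤ rho n := by
  unfold rho
  split_ifs
  · refine Finset.prod_nonneg fun p hp => ?_
    have hp1 : 1 ≤ p := (Nat.prime_of_mem_primeFactors hp).one_lt.le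
    have : 1 / (p : ℝ) ≤ 1 := by
      rw [div_le_one (by positivity)]
      exact_mod_cast hp1
    linarith
  · exact le_rfl

lemma rho_le_one (n : ℕ) : rho n ≤ 1 := by
  unfold rho
  split_ifs
  · refine Finset.prod_le_one (fun p hp => ?_) fun p hp => ?_
    · have hp1 : 1 ≤ p := (Nat.prime_of_mem_primeFactors hp).one_lt.le
      have : 1 / (p : ℝ) ≤ 1 := by
        rw [div_le_one (by positivity)]
        exact_mod_cast hp1
      linarith
    · have : 0 ≤ 1 / (p : ℝ) := by positivity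
      linarith
  · exact zero_le_one

/-- `Toff` as a sum over pairs -/
lemma toff_eq (hC : StCoef) {H : ℝ} (hH : 0 < H) {t : ℕ} (ht : t ≠ 0) {u₁ u₂ : ℝ} (h₁ : 0 < u₁)
    (h₂ : 0 < u₂) :
    Toff H t u₁ u₂ = 16 * ∑' p : ℕ × ℕ, cc u₁ u₂ p * Off H (t * (p.1 * p.2)) := by
  have hcc : Summable fun p : ℕ × ℕ => |cc u₁ u₂ p| := by
    simpa using summable_cc hC h₁ h₂ 0
  have hsum : Summable (Function.uncurry fun (h : ℤ) (p : ℕ × ℕ) =>
      H1.ah H h * (cc u₁ u₂ p * chi h (t * (p.1 * p.2)))) := by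
    have h2 := (H1.summable_ah hH).mul_of_nonneg hcc (H1.ah_nonneg H) (fun n => by positivity)
    refine Summable.of_norm_bounded h2 fun x => ?_
    simp only [Function.uncurry]
    rw [norm_mul, norm_mul, Real.norm_eq_abs, Real.norm_eq_abs, Real.norm_eq_abs,
      abs_of_nonneg (H1.ah_nonneg H x.1)]
    refine mul_le_mul_of_nonneg_left ?_ (H1.ah_nonneg H x.1)
    exact mul_le_of_le_one_right (by positivity) (H1.abs_chi_le _ _)
  have e1 : ∀ h : ℤ, H1.ah H h * (chi h t * (theta h u₁ * theta h u₂)) =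
      16 * ∑' p : ℕ × ℕ, H1.ah H h * (cc u₁ u₂ p * chi h (t * (p.1 * p.2))) := by
    intro h
    rw [theta_mul hC h h₁ h₂, tsum_mul_left, ← mul_assoc, ← mul_assoc, ← mul_assoc,
      mul_comm (H1.ah H h * chi h t) 16, mul_assoc, mul_assoc, mul_assoc]
    congr 2
    rw [← tsum_mul_left]
    refine tsum_congr fun p => ?_
    by_cases hp : p.1 = 0 ∨ p.2 = 0
    · have : cc u₁ u₂ p = 0 := by
        rw [cc_eq]
        rcases hp with hp | hp <;> simp [hp, c1, hC.zero]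
      rw [this]; ring
    · rw [not_or] at hp
      rw [H1.chi_mul h ht (Nat.mul_ne_zero hp.1 hp.2)]
      ring
  have e2 : ∑' h : ℤ, H1.ah H h * (chi h t * (theta h u₁ * theta h u₂)) =
      16 * ∑' p : ℕ × ℕ, cc u₁ u₂ p * ∑' h : ℤ, H1.ah H h * chi h (t * (p.1 * p.2)) := by
    rw [tsum_congr e1, tsum_mul_left, ← hsum.tsum_comm]
    congr 1
    refine tsum_congr fun p => ?_
    rw [← tsum_mul_left]
    exact tsum_congr fun h => by ring
  have e3 : Emain t u₁ u₂ = 16 * ∑' p : ℕ × ℕ, cc u₁ u₂ p * rho (t * (p.1 * p.2)) := by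
    unfold Emain cc
    congr 1
    exact tsum_congr fun p => by ring
  unfold Toff
  rw [e2, e3]
  have hs1 : Summable fun p : ℕ × ℕ => cc u₁ u₂ p * ∑' h : ℤ, H1.ah H h * chi h (t * (p.1 * p.2)) := by
    refine Summable.of_norm_bounded (hcc.mul_right (∑' h : ℤ, H1.ah H h)) fun p => ?_
    rw [norm_mul, Real.norm_eq_abs]
    refine mul_le_mul_of_nonneg_left ?_ (abs_nonneg _)
    refine tsum_of_norm_bounded (H1.summable_ah hH).hasSum fun h => ?_
    rw [norm_mul, Real.norm_eq_abs, Real.norm_eq_abs, abs_of_nonneg (H1.ah_nonneg H h)]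
    exact mul_le_of_le_one_right (H1.ah_nonneg H h) (H1.abs_chi_le _ _)
  have hs2 : Summable fun p : ℕ × ℕ => cc u₁ u₂ p * (5040 * H * rho (t * (p.1 * p.2))) := by
    refine Summable.of_norm_bounded (hcc.mul_right (5040 * H)) fun p => ?_
    rw [norm_mul, Real.norm_eq_abs, Real.norm_eq_abs]
    refine mul_le_mul_of_nonneg_left ?_ (abs_nonneg _)
    rw [abs_of_nonneg (mul_nonneg (by positivity) (rho_nonneg _))]
    exact mul_le_of_le_one_right (by positivity) (rho_le_one _)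
  have e4 : 5040 * H * (16 * ∑' p : ℕ × ℕ, cc u₁ u₂ p * rho (t * (p.1 * p.2))) =
      16 * ∑' p : ℕ × ℕ, cc u₁ u₂ p * (5040 * H * rho (t * (p.1 * p.2))) := by
    rw [← mul_assoc, mul_comm (5040 * H) 16, mul_assoc, ← tsum_mul_left]
    congr 1
    exact tsum_congr fun p => by ring
  rw [e4, ← mul_sub, ← hs1.tsum_sub hs2]
  congr 1
  refine tsum_congr fun p => ?_
  unfold Off
  ring

end Tw
end P004
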