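import Vale.Agent.P004.H503.Iface3

/-!
# P004, module D (twisted bilinear estimate): definitions and statements
-/

open Real MeasureTheory Set
open scoped ENNReal

namespace P004

namespace Tw

/-- the main term: `E_f [f(t) θ_f(u₁) θ_f(u₂)]` for the random completely multiplicative `f` -/
noncomputable def Emain (t : ℕ) (u₁ u₂ : ℝ) : ℝ :=
  16 * ∑' p : ℕ × ℕ, rho (t * (p.1 * p.2)) * (ca p.1 * ca p.2) *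
    Real.exp (-π * (p.1 * u₁ + p.2 * u₂))

/-- the twisted second moment over all integers `h` minus its main term -/
noncomputable def Toff (H : ℝ) (t : ℕ) (u₁ u₂ : ℝ) : ℝ :=
  ∑' h : ℤ, H1.ah H h * (chi h t * (theta h u₁ * theta h u₂)) - 5040 * H * Emain t u₁ u₂

/-- the weighted norm of a test function -/
noncomputable def Nh (θ : ℝ) (h : ℝ → ℝ≥0∞) : ℝ≥0∞ :=
  (∫⁻ u : ℝ, h u ^ 2 * ENNReal.ofReal (u ^ (-1 - 2 * θ))) ^ (1 / 2 : ℝ)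

/-- the bilinear bound -/
def StTwL : Prop :=
  ∃ C : ℝ, 1 ≤ C ∧ ∃ A : ℕ, ∀ (L H N : ℝ) (t : ℕ), 1 ≤ L → 1 ≤ H → Real.log H ≤ L → 1 ≤ N →
    Real.log N ≤ L → Good t → Real.log t ≤ L →
    ∀ h₁ h₂ : ℝ → ℝ≥0∞, Measurable h₁ → Measurable h₂ →
      (∀ u : ℝ, u < 1 / (3 * N) → h₁ u = 0) → (∀ u : ℝ, u < 1 / (3 * N) → h₂ u = 0) →
      ∫⁻ p : ℝ × ℝ, h₁ p.1 * h₂ p.2 * ‖Toff H t p.1 p.2‖ₑ ≤
        ENNReal.ofReal (C * L ^ A * √(t : ℝ) * dv t ^ A * N) *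
          (Nh (1 / (8 * L)) h₁ * Nh (1 / (8 * L)) h₂)

/-- the powerful numbers -/
abbrev Pw := {r : ℕ // Powerful r}

/-- conditions on `i = ((r₁, r₂), (d₁, d₂))` -/
def Cd (t : ℕ) (i : (Pw × Pw) × (ℕ × ℕ)) : Prop :=
  (Squarefree i.2.1 ∧ i.2.1.Coprime i.1.1 ∧ i.2.1 ∣ t * i.1.1 * i.1.2) ∧
  (Squarefree i.2.2 ∧ i.2.2.Coprime i.1.2 ∧ i.2.2 ∣ t * i.1.1 * i.1.2)

/-- conditions on `(s₁, s₂)` -/
def Cs (R : ℕ) (s : ℕ × ℕ) : Prop :=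
  (Squarefree s.1 ∧ s.1.Coprime R) ∧ (Squarefree s.2 ∧ s.2.Coprime R)

open scoped Classical in
/-- the decomposition `n_i = r_i d_i s_i` with `r_i` powerful, `d_i ∣ R = t r₁ r₂`, `d_i s_i`
squarefree and coprime to `r_i`, `s_i` coprime to `R` -/
def StDecII : Prop :=
  ∀ t : ℕ, t ≠ 0 → ∀ F : ℕ × ℕ → ℝ, Summable F → (∀ p : ℕ × ℕ, p.1 = 0 ∨ p.2 = 0 → F p = 0) →
    ‖∑' p, F p‖ₑ ≤ ∑' i : (Pw × Pw) × (ℕ × ℕ), if Cd t i then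
      ‖∑' s : ℕ × ℕ, if Cs (t * i.1.1 * i.1.2) s then
        F (i.1.1 * i.2.1 * s.1, i.1.2 * i.2.2 * s.2) else 0‖ₑ else 0

open scoped Classical in
/-- the sum of the weights over `(r₁, r₂), (d₁, d₂)` -/
def StWts : Prop := ∀ A : ℕ, ∃ C : ℝ, 1 ≤ C ∧ ∃ B : ℕ, ∀ θ : ℝ, 0 < θ → θ ≤ 1 → ∀ t : ℕ, t ≠ 0 →
  ∑' i : (Pw × Pw) × (ℕ × ℕ), (if Cd t i then
    ENNReal.ofReal (|(ca i.1.1 : ℝ) * ca i.2.1 * (ca i.1.2 * ca i.2.2)| *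
      dv (t * (i.1.1 * i.2.1) * (i.1.2 * i.2.2)) ^ A * dv (t * i.1.1 * i.1.2) ^ A *
      ((i.1.1 : ℝ) * i.2.1 * (i.1.2 * i.2.2)) ^ (-1 - θ)) else 0) ≤
    ENNReal.ofReal (C * (1 / θ) ^ B * dv t ^ B)

/-- the sum over `j` -/
def StJs : Prop := ∀ A : ℕ, ∃ C : ℝ, 1 ≤ C ∧ ∃ B : ℕ, ∀ L H M : ℝ, 1 ≤ L → 1 ≤ H → 0 < M →
  Real.log M ≤ 1000 * L → ∀ (W : ℕ → ℝ≥0∞) (D : ℝ≥0∞),
    (∀ j₁ j₂ : ℕ, Squarefree j₁ → 0 < j₂ → W (j₁ * j₂ ^ 2) ≤ D * ENNReal.ofReal (dv j₂ ^ A *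
      (((j₁ * j₂ ^ 2 : ℕ) : ℝ) * H) ^ (-1 / 2 + 1 / (8 * L))) * (Jm j₁ + 1)) →
    ∑ j ∈ Finset.Icc 1 ⌊M / H⌋₊, W j ≤ D * ENNReal.ofReal (C * L ^ B * √M / H)

end Tw

end P004
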