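import Vale.Agent.P004.H253.Tw4
import Vale.Agent.P004.H253.TwDefs
import Vale.Agent.P004.H3

/-!
# P004, module D (twisted bilinear estimate), part 5: the bound for one `j`
-/

open Real MeasureTheory Set Filter
open scoped ENNReal Topology

namespace P004
namespace Tw

lemma lint_pos {G : ℝ → ℝ≥0∞} (hG : ∀ u ≤ 0, G u = 0) : ∫⁻ u, G u = ∫⁻ u in Ioi 0, G u := by
  rw [← lintegral_indicator measurableSet_Ioi]
  refine lintegral_congr fun u => ?_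
  by_cases hu : 0 < u
  · rw [indicator_of_mem (by exact hu)]
  · rw [indicator_of_notMem (by simpa using hu), hG u (not_lt.1 hu)]

lemma enorm_sq_ofReal (z : ℂ) : ENNReal.ofReal (‖z‖ ^ 2) = ‖z‖ₑ ^ 2 := by
  rw [ENNReal.ofReal_pow (norm_nonneg _), ofReal_norm]

/-- Cauchy–Schwarz with the weight `u^{1+2θ}` -/
lemma cs1 {θ : ℝ} {h : ℝ → ℝ≥0∞} (hh : Measurable h) (h0 : ∀ u ≤ 0, h u = 0) {F : ℝ → ℂ}
    (hF : Measurable F) {c : ℝ} (hc : 0 < c) :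
    ∫⁻ u : ℝ, h u * ‖F (u * c)‖ₑ ≤
      Nh θ h * (ENNReal.ofReal (c ^ (-2 - 2 * θ)) * nrm θ F) ^ (1 / 2 : ℝ) := by
  rw [lint_pos (fun u hu => by rw [h0 u hu, zero_mul])]
  set a : ℝ → ℝ≥0∞ := fun u => h u * ENNReal.ofReal (u ^ ((-1 - 2 * θ) / 2)) with ha
  set b : ℝ → ℝ≥0∞ := fun u => ‖F (u * c)‖ₑ * ENNReal.ofReal (u ^ ((1 + 2 * θ) / 2)) with hb
  have hma : Measurable a := hh.mul (Measurable.ennreal_ofReal (measurable_id.pow_const _))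
  have hmb : Measurable b := by
    have h1 : Measurable fun u : ℝ => F (u * c) := hF.comp (measurable_id.mul_const c)
    exact h1.enorm.mul (Measurable.ennreal_ofReal (measurable_id.pow_const _))
  have hcs := ENNReal.lintegral_mul_le_Lp_mul_Lq (volume.restrict (Ioi (0 : ℝ)))
    Real.HolderConjugate.two_two hma.aemeasurable hmb.aemeasurable
  have e1 : ∫⁻ u in Ioi (0 : ℝ), (a * b) u = ∫⁻ u in Ioi (0 : ℝ), h u * ‖F (u * c)‖ₑ := by
    refine setLIntegral_congr_fun measurableSet_Ioi fun u hu => ?_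
    have hu : (0 : ℝ) < u := hu
    simp only [ha, hb, Pi.mul_apply]
    have : ENNReal.ofReal (u ^ ((-1 - 2 * θ) / 2)) * ENNReal.ofReal (u ^ ((1 + 2 * θ) / 2)) = 1 := by
      rw [← ENNReal.ofReal_mul (by positivity), ← Real.rpow_add hu]
      rw [show (-1 - 2 * θ) / 2 + (1 + 2 * θ) / 2 = 0 by ring, Real.rpow_zero, ENNReal.ofReal_one]
    calc h u * ENNReal.ofReal (u ^ ((-1 - 2 * θ) / 2)) *
          (‖F (u * c)‖ₑ * ENNReal.ofReal (u ^ ((1 + 2 * θ) / 2))) =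
        h u * ‖F (u * c)‖ₑ * (ENNReal.ofReal (u ^ ((-1 - 2 * θ) / 2)) *
          ENNReal.ofReal (u ^ ((1 + 2 * θ) / 2))) := by ring
      _ = _ := by rw [this, mul_one]
  have hsq : ∀ {u : ℝ}, 0 < u → ∀ x : ℝ, ENNReal.ofReal (u ^ (x / 2)) ^ (2 : ℝ) =
      ENNReal.ofReal (u ^ x) := by
    intro u hu x
    rw [ENNReal.ofReal_rpow_of_nonneg (by positivity) (by norm_num), ← Real.rpow_mul hu.le]
    congr 2
    ring
  have e2 : ∫⁻ u in Ioi (0 : ℝ), a u ^ (2 : ℝ) =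
      ∫⁻ u : ℝ, h u ^ 2 * ENNReal.ofReal (u ^ (-1 - 2 * θ)) := by
    rw [lint_pos (G := fun u => h u ^ 2 * ENNReal.ofReal (u ^ (-1 - 2 * θ)))
      (fun u hu => by rw [h0 u hu]; simp)]
    refine setLIntegral_congr_fun measurableSet_Ioi fun u hu => ?_
    have hu : (0 : ℝ) < u := hu
    simp only [ha]
    rw [ENNReal.mul_rpow_of_nonneg _ _ (by norm_num), hsq hu]
    norm_cast
  have e3 : ∫⁻ u in Ioi (0 : ℝ), b u ^ (2 : ℝ) =
      ENNReal.ofReal (c ^ (-2 - 2 * θ)) * nrm θ F := by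
    rw [← H3.scale θ F hc]
    refine setLIntegral_congr_fun measurableSet_Ioi fun u hu => ?_
    have hu : (0 : ℝ) < u := hu
    simp only [hb]
    rw [ENNReal.mul_rpow_of_nonneg _ _ (by norm_num), hsq hu,
      ENNReal.ofReal_mul (by positivity), enorm_sq_ofReal]
    norm_cast
  rw [e1, e2, e3] at hcs
  exact hcs

lemma measurable_TGv {θ : ℝ} (hθ : 0 < θ) (R : ℕ) (m : ℤ) (v : ℝ) :
    Measurable fun u : ℝ => H3.TG θ R m (v, u) := by
  have h1 := H3.measurable_TG hθ R m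
  exact h1.comp (by fun_prop)

lemma nrm_TG (θ v : ℝ) (R : ℕ) (m : ℤ) :
    nrm θ (fun u => H3.TG θ R m (v, u)) = nrm θ (Tf θ v R m) := by
  unfold nrm
  refine setLIntegral_congr_fun measurableSet_Ioi fun u hu => ?_
  have hu : (0 : ℝ) < u := hu
  simp only
  rw [H3.TG_eq hu]

/-- product of the two one-variable bounds -/
lemma cs2 {θ : ℝ} (hθ : 0 < θ) {h₁ h₂ : ℝ → ℝ≥0∞} (hh₁ : Measurable h₁) (hh₂ : Measurable h₂)
    (h₁0 : ∀ u ≤ 0, h₁ u = 0) (h₂0 : ∀ u ≤ 0, h₂ u = 0) (R : ℕ) (m : ℤ) (v : ℝ) {a b : ℝ}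
    (ha : 0 < a) (hb : 0 < b) :
    (∫⁻ u : ℝ, h₁ u * ‖H3.TG θ R m (v, u * a)‖ₑ) * (∫⁻ u : ℝ, h₂ u * ‖H3.TG θ R m (v, u * b)‖ₑ) ≤
      Nh θ h₁ * Nh θ h₂ * (ENNReal.ofReal ((a * b) ^ (-1 - θ)) * nrm θ (Tf θ v R m)) := by
  have h1 := cs1 (θ := θ) hh₁ h₁0 (measurable_TGv hθ R m v) ha
  have h2 := cs1 (θ := θ) hh₂ h₂0 (measurable_TGv hθ R m v) hb
  rw [nrm_TG] at h1 h2
  refine (mul_le_mul' h1 h2).trans (le_of_eq ?_)
  have e1 : (ENNReal.ofReal (a ^ (-2 - 2 * θ)) * nrm θ (Tf θ v R m)) ^ (1 / 2 : ℝ) *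
      (ENNReal.ofReal (b ^ (-2 - 2 * θ)) * nrm θ (Tf θ v R m)) ^ (1 / 2 : ℝ) =
      ENNReal.ofReal ((a * b) ^ (-1 - θ)) * nrm θ (Tf θ v R m) := by
    rw [ENNReal.mul_rpow_of_nonneg _ _ (by norm_num), ENNReal.mul_rpow_of_nonneg _ _ (by norm_num)]
    have e2 : nrm θ (Tf θ v R m) ^ (1 / 2 : ℝ) * nrm θ (Tf θ v R m) ^ (1 / 2 : ℝ) =
        nrm θ (Tf θ v R m) := by
      rw [← ENNReal.rpow_add_of_nonneg _ _ (by norm_num) (by norm_num)]
      norm_num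
    have e3 : ENNReal.ofReal (a ^ (-2 - 2 * θ)) ^ (1 / 2 : ℝ) *
        ENNReal.ofReal (b ^ (-2 - 2 * θ)) ^ (1 / 2 : ℝ) = ENNReal.ofReal ((a * b) ^ (-1 - θ)) := by
      rw [ENNReal.ofReal_rpow_of_nonneg (by positivity) (by norm_num),
        ENNReal.ofReal_rpow_of_nonneg (by positivity) (by norm_num), ← Real.rpow_mul ha.le,
        ← Real.rpow_mul hb.le, ← ENNReal.ofReal_mul (by positivity), ← Real.mul_rpow ha.le hb.le]
      congr 2
      ring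
    calc _ = (ENNReal.ofReal (a ^ (-2 - 2 * θ)) ^ (1 / 2 : ℝ) *
        ENNReal.ofReal (b ^ (-2 - 2 * θ)) ^ (1 / 2 : ℝ)) *
        (nrm θ (Tf θ v R m) ^ (1 / 2 : ℝ) * nrm θ (Tf θ v R m) ^ (1 / 2 : ℝ)) := by ring
      _ = _ := by rw [e2, e3]
  calc _ = Nh θ h₁ * Nh θ h₂ *
        ((ENNReal.ofReal (a ^ (-2 - 2 * θ)) * nrm θ (Tf θ v R m)) ^ (1 / 2 : ℝ) *
      (ENNReal.ofReal (b ^ (-2 - 2 * θ)) * nrm θ (Tf θ v R m)) ^ (1 / 2 : ℝ)) := by ring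
    _ = _ := by rw [e1]

/-- the main computation for fixed `g`, `e` -/
lemma inner2 {θ : ℝ} (hθ : 0 < θ) {CF : ℝ} (hCF : 0 < CF)
    {CG : ℝ} (hCG : 0 < CG) {AG : ℕ} (r j₁ j₂ : ℕ) (hr : 0 < r) (hj₂ : 0 < j₂)
    (hF : ∀ v : ℝ, nrm θ (Bf θ v j₁) ≤
      ENNReal.ofReal (CF * (1 / θ) ^ 2 * Real.exp (2 * π * |v|)) * (Jm j₁ + 1))
    (hG : ∀ v : ℝ, ∀ R : ℕ, 0 < R → nrm θ (Tf θ v R j₁) ≤
      ENNReal.ofReal (CG * (1 / θ) ^ AG * dv R ^ AG) * nrm θ (Bf θ v j₁))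
    {M : ℝ} (hv : ∫⁻ v : ℝ, ENNReal.ofReal (Real.exp (-π * |v|)) ≤ ENNReal.ofReal M)
    {g e : ℕ} (hg : 0 < g) (he : 0 < e) {ρ₁ ρ₂ : ℝ} (hρ₁ : 0 < ρ₁) (hρ₂ : 0 < ρ₂)
    {h₁ h₂ : ℝ → ℝ≥0∞} (hh₁ : Measurable h₁) (hh₂ : Measurable h₂)
    (h₁0 : ∀ u ≤ 0, h₁ u = 0) (h₂0 : ∀ u ≤ 0, h₂ u = 0) :
    ∫⁻ v : ℝ, ENNReal.ofReal (Real.exp (-3 * π * |v|)) *
        ((∫⁻ u : ℝ, h₁ u * ‖H3.TG θ (e * g * r) ((j₁ * j₂ ^ 2 : ℕ) : ℤ) (v, u * (ρ₁ * (g * e)))‖ₑ) *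
          (∫⁻ u : ℝ, h₂ u * ‖H3.TG θ (e * g * r) ((j₁ * j₂ ^ 2 : ℕ) : ℤ) (v, u * (ρ₂ * (g * e)))‖ₑ)) ≤
      ENNReal.ofReal ((M * CF * CG * (1 / θ) ^ (AG + 2) * dv r ^ AG * dv j₂ ^ AG *
        (ρ₁ * ρ₂) ^ (-1 - θ)) *
        (dv g ^ AG * dv e ^ AG * ((g : ℝ) * e) ^ (-2 - 2 * θ))) * (Jm j₁ + 1) *
        (Nh θ h₁ * Nh θ h₂) := by
  have hg' : (0 : ℝ) < g := by exact_mod_cast hg
  have he' : (0 : ℝ) < e := by exact_mod_cast he
  have hdr := H3.dv_nonneg r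
  have hdj := H3.dv_nonneg j₂
  have hdg := H3.dv_nonneg g
  have hde := H3.dv_nonneg e
  set D : ℝ := CF * CG * (1 / θ) ^ (AG + 2) * dv r ^ AG * dv j₂ ^ AG * (ρ₁ * ρ₂) ^ (-1 - θ) *
        (dv g ^ AG * dv e ^ AG * ((g : ℝ) * e) ^ (-2 - 2 * θ)) with hD
  have hD0 : 0 ≤ D := by positivity
  have e2 : ∀ v : ℝ, ENNReal.ofReal (Real.exp (-3 * π * |v|)) *
        ((∫⁻ u : ℝ, h₁ u * ‖H3.TG θ (e * g * r) ((j₁ * j₂ ^ 2 : ℕ) : ℤ) (v, u * (ρ₁ * (g * e)))‖ₑ) *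
          (∫⁻ u : ℝ, h₂ u * ‖H3.TG θ (e * g * r) ((j₁ * j₂ ^ 2 : ℕ) : ℤ) (v, u * (ρ₂ * (g * e)))‖ₑ)) ≤
      (Nh θ h₁ * Nh θ h₂ * ENNReal.ofReal D * (Jm j₁ + 1)) *
        ENNReal.ofReal (Real.exp (-π * |v|)) := by
    intro v
    have hc := cs2 hθ hh₁ hh₂ h₁0 h₂0 (e * g * r) ((j₁ * j₂ ^ 2 : ℕ) : ℤ) v
      (a := ρ₁ * (g * e)) (b := ρ₂ * (g * e)) (by positivity) (by positivity)
    have hT : nrm θ (Tf θ v (e * g * r) ((j₁ * j₂ ^ 2 : ℕ) : ℤ)) =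
        nrm θ (Tf θ v (e * g * r * j₂) j₁) := by
      congr 1
      funext u
      exact H3.Tf_sq θ v _ _ _ u
    rw [hT] at hc
    have hR : 0 < e * g * r * j₂ := by positivity
    have hd : dv (e * g * r * j₂) ^ AG ≤ dv r ^ AG * dv j₂ ^ AG * (dv g ^ AG * dv e ^ AG) := by
      have : dv (e * g * r * j₂) ≤ dv r * dv j₂ * (dv g * dv e) := by
        calc dv (e * g * r * j₂) ≤ dv (e * g * r) * dv j₂ := H3.dv_mul_le _ _
          _ ≤ dv (e * g) * dv r * dv j₂ := by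
            gcongr
            exact H3.dv_mul_le _ _
          _ ≤ dv e * dv g * dv r * dv j₂ := by
            gcongr
            exact H3.dv_mul_le _ _
          _ = dv r * dv j₂ * (dv g * dv e) := by ring
      calc dv (e * g * r * j₂) ^ AG ≤ (dv r * dv j₂ * (dv g * dv e)) ^ AG := by
            gcongr
            exact H3.dv_nonneg _
        _ = _ := by rw [mul_pow, mul_pow, mul_pow]
    have hn : nrm θ (Tf θ v (e * g * r * j₂) j₁) ≤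
        ENNReal.ofReal ((CG * (1 / θ) ^ AG * (dv r ^ AG * dv j₂ ^ AG * (dv g ^ AG * dv e ^ AG))) *
          (CF * (1 / θ) ^ 2 * Real.exp (2 * π * |v|))) * (Jm j₁ + 1) := by
      refine (hG v _ hR).trans ?_
      refine (mul_le_mul' le_rfl (hF v)).trans ?_
      rw [← mul_assoc, ← ENNReal.ofReal_mul (by have := H3.dv_nonneg (e * g * r * j₂); positivity)]
      refine mul_le_mul' (ENNReal.ofReal_le_ofReal ?_) le_rfl
      gcongr
    have hab : (ρ₁ * (g * e) * (ρ₂ * (g * e))) ^ (-1 - θ) =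
        (ρ₁ * ρ₂) ^ (-1 - θ) * ((g : ℝ) * e) ^ (-2 - 2 * θ) := by
      have h1 : ρ₁ * (g * e) * (ρ₂ * (g * e)) = (ρ₁ * ρ₂) * (((g : ℝ) * e) ^ (2 : ℝ)) := by
        rw [Real.rpow_two]; ring
      rw [h1, Real.mul_rpow (by positivity) (by positivity), ← Real.rpow_mul (by positivity)]
      congr 2
      ring
    calc _ ≤ ENNReal.ofReal (Real.exp (-3 * π * |v|)) * (Nh θ h₁ * Nh θ h₂ *
          (ENNReal.ofReal ((ρ₁ * (g * e) * (ρ₂ * (g * e))) ^ (-1 - θ)) *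
          (ENNReal.ofReal ((CG * (1 / θ) ^ AG * (dv r ^ AG * dv j₂ ^ AG * (dv g ^ AG * dv e ^ AG))) *
          (CF * (1 / θ) ^ 2 * Real.exp (2 * π * |v|))) * (Jm j₁ + 1)))) :=
          mul_le_mul' le_rfl (hc.trans (mul_le_mul' le_rfl (mul_le_mul' le_rfl hn)))
      _ = Nh θ h₁ * Nh θ h₂ * (Jm j₁ + 1) * (ENNReal.ofReal (Real.exp (-3 * π * |v|)) *
          (ENNReal.ofReal ((ρ₁ * (g * e) * (ρ₂ * (g * e))) ^ (-1 - θ)) *
          ENNReal.ofReal ((CG * (1 / θ) ^ AG * (dv r ^ AG * dv j₂ ^ AG * (dv g ^ AG * dv e ^ AG))) *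
          (CF * (1 / θ) ^ 2 * Real.exp (2 * π * |v|))))) := by ring
      _ = Nh θ h₁ * Nh θ h₂ * (Jm j₁ + 1) * (ENNReal.ofReal D * ENNReal.ofReal (Real.exp (-π * |v|))) := by
          congr 1
          rw [← ENNReal.ofReal_mul (by positivity), ← ENNReal.ofReal_mul (by positivity),
            ← ENNReal.ofReal_mul hD0]
          congr 1
          have hexp : Real.exp (-3 * π * |v|) * Real.exp (2 * π * |v|) = Real.exp (-π * |v|) := by
            rw [← Real.exp_add]; congr 1; ring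
          rw [hab, hD, ← hexp]
          ring
      _ = _ := by ring
  refine (lintegral_mono e2).trans ?_
  have hne : Measurable fun v : ℝ => ENNReal.ofReal (Real.exp (-π * |v|)) := by
    fun_prop
  rw [lintegral_const_mul _ hne]
  calc Nh θ h₁ * Nh θ h₂ * ENNReal.ofReal D * (Jm j₁ + 1) *
        ∫⁻ v : ℝ, ENNReal.ofReal (Real.exp (-π * |v|))
      ≤ Nh θ h₁ * Nh θ h₂ * ENNReal.ofReal D * (Jm j₁ + 1) * ENNReal.ofReal M := by gcongr
    _ = (ENNReal.ofReal D * ENNReal.ofReal M) * (Jm j₁ + 1) * (Nh θ h₁ * Nh θ h₂) := by ring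
    _ = _ := by
      rw [← ENNReal.ofReal_mul hD0]
      congr 3
      rw [hD]
      ring

/-- the bound for one `j` -/
theorem Aj2W (hco : StCoef) (hk : StKer) (hConv : StConv) (hFrac : StFrac) (hDiv : StDiv) :
    ∃ C : ℝ, 0 < C ∧ ∃ A : ℕ, ∀ θ : ℝ, 0 < θ → θ ≤ 1 / 8 → ∀ (H ρ₁ ρ₂ : ℝ) (r j₁ j₂ : ℕ), 0 < H →
      0 < ρ₁ → 0 < ρ₂ → 0 < r → Squarefree j₁ → 0 < j₂ →
      ∀ h₁ h₂ : ℝ → ℝ≥0∞, Measurable h₁ → Measurable h₂ → (∀ u ≤ 0, h₁ u = 0) →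
      (∀ u ≤ 0, h₂ u = 0) →
      ∫⁻ p : ℝ × ℝ, h₁ p.1 * h₂ p.2 *
        ‖Aj2 H r ((j₁ * j₂ ^ 2 : ℕ) : ℤ) (ρ₁ * p.1) (ρ₂ * p.2)‖ₑ ≤
      ENNReal.ofReal (C * (1 / θ) ^ A * dv r ^ A * dv j₂ ^ A *
        (((j₁ * j₂ ^ 2 : ℕ) : ℝ) * H) ^ (-1 / 2 + θ) * (ρ₁ * ρ₂) ^ (-1 - θ)) * (Jm j₁ + 1) *
        (Nh θ h₁ * Nh θ h₂) := by
  obtain ⟨CS, hCS, hS⟩ := sep2 hco hk
  obtain ⟨CG, hCG, AG, hG⟩ := hConv
  obtain ⟨CF, hCF, hF⟩ := hFrac
  obtain ⟨M, hM, hv⟩ := H3.vint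
  obtain ⟨C1, hC1, A1, h1⟩ := hDiv.1 (3 + AG)
  obtain ⟨C2, hC2, A2, h2⟩ := hDiv.1 (2 + AG)
  refine ⟨CS * M * CF * CG * C1 * C2, by positivity, AG + 2 + A1 + A2, ?_⟩
  intro θ hθ hθ8 H ρ₁ ρ₂ r j₁ j₂ hH hρ₁ hρ₂ hr hj₁ hj₂ h₁ h₂ hh₁ hh₂ h₁0 h₂0
  have hj₁0 : 0 < j₁ := Nat.pos_of_ne_zero hj₁.ne_zero
  set j : ℕ := j₁ * j₂ ^ 2 with hj
  have hj0 : 0 < j := by positivity
  have hj0' : (0 : ℝ) < j := by exact_mod_cast hj0
  set B : ℝ := M * CF * CG * (1 / θ) ^ (AG + 2) * dv r ^ AG * dv j₂ ^ AG *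
    (ρ₁ * ρ₂) ^ (-1 - θ) with hB
  have hdr := H3.one_le_dv hr.ne'
  have hdj := H3.one_le_dv hj₂.ne'
  have hB0 : 0 ≤ B := by positivity
  set w : ℕ → ℕ → ℝ≥0∞ := fun g e =>
    ENNReal.ofReal (g * dv g ^ 3 * (dv e ^ 2 * (e : ℝ) ^ (1 - 2 * θ))) with hw
  set T : ℕ → ℕ → ℝ → ℝ × ℝ → ℝ≥0∞ := fun g e v p =>
    ENNReal.ofReal (Real.exp (-3 * π * |v|)) *
      ((h₁ p.1 * ‖H3.TG θ (e * g * r) (j : ℤ) (v, p.1 * (ρ₁ * (g * e)))‖ₑ) *
       (h₂ p.2 * ‖H3.TG θ (e * g * r) (j : ℤ) (v, p.2 * (ρ₂ * (g * e)))‖ₑ)) with hT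
  have hmT : ∀ g e : ℕ, Measurable (fun x : (ℝ × ℝ) × ℝ => T g e x.2 x.1) := by
    intro g e
    simp only [hT]
    have m1 : Measurable fun x : (ℝ × ℝ) × ℝ =>
        H3.TG θ (e * g * r) (j : ℤ) (x.2, x.1.1 * (ρ₁ * (g * e))) := by
      have h1 := H3.measurable_TG hθ (e * g * r) (j : ℤ)
      exact h1.comp (by fun_prop)
    have m2 : Measurable fun x : (ℝ × ℝ) × ℝ =>
        H3.TG θ (e * g * r) (j : ℤ) (x.2, x.1.2 * (ρ₂ * (g * e))) := by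
      have h1 := H3.measurable_TG hθ (e * g * r) (j : ℤ)
      exact h1.comp (by fun_prop)
    have m3 : Measurable fun x : (ℝ × ℝ) × ℝ => h₁ x.1.1 := hh₁.comp (by fun_prop)
    have m4 : Measurable fun x : (ℝ × ℝ) × ℝ => h₂ x.1.2 := hh₂.comp (by fun_prop)
    have m5 : Measurable fun x : (ℝ × ℝ) × ℝ => ENNReal.ofReal (Real.exp (-3 * π * |x.2|)) := by
      fun_prop
    exact m5.mul ((m3.mul m1.enorm).mul (m4.mul m2.enorm))
  set I : ℕ → ℕ → ℝ × ℝ → ℝ≥0∞ := fun g e p => ∫⁻ v : ℝ, T g e v p with hI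
  have hmI : ∀ g e : ℕ, Measurable (I g e) := fun g e => (hmT g e).lintegral_prod_right'
  have step1 : ∀ p : ℝ × ℝ, h₁ p.1 * h₂ p.2 * ‖Aj2 H r (j : ℤ) (ρ₁ * p.1) (ρ₂ * p.2)‖ₑ ≤
      ENNReal.ofReal (CS * (j * H) ^ (-1 / 2 + θ)) * ∑' g : ℕ, ∑' e : ℕ, w g e * I g e p := by
    intro p
    by_cases hp1 : p.1 ≤ 0
    · rw [h₁0 _ hp1]; simp
    by_cases hp2 : p.2 ≤ 0
    · rw [h₂0 _ hp2]; simp
    rw [not_le] at hp1 hp2
    refine (mul_le_mul' le_rfl (hS θ hθ hθ8 H r j (ρ₁ * p.1) (ρ₂ * p.2) hH hr hj0 (by positivity)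
      (by positivity))).trans (le_of_eq ?_)
    rw [← mul_assoc, mul_comm (h₁ p.1 * h₂ p.2), mul_assoc]
    congr 1
    rw [← ENNReal.tsum_mul_left]
    refine tsum_congr fun g => ?_
    rw [← ENNReal.tsum_mul_left]
    refine tsum_congr fun e => ?_
    rw [← mul_assoc, mul_comm (h₁ p.1 * h₂ p.2), mul_assoc]
    by_cases hge : 0 < g ∧ 0 < e
    · have hg' : (0 : ℝ) < g := by exact_mod_cast hge.1
      have he' : (0 : ℝ) < e := by exact_mod_cast hge.2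
      simp only [hI, hw]
      congr 1
      rw [← lintegral_const_mul]
      · refine lintegral_congr fun v => ?_
        simp only [hT]
        rw [H3.TG_eq (by positivity), H3.TG_eq (by positivity), ENNReal.ofReal_mul (by positivity),
          ENNReal.ofReal_mul (norm_nonneg _), ofReal_norm, ofReal_norm]
        rw [show ρ₁ * p.1 * g * e = p.1 * (ρ₁ * (g * e)) by ring,
          show ρ₂ * p.2 * g * e = p.2 * (ρ₂ * (g * e)) by ring]
        ring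
      · have m1 : Measurable fun v : ℝ =>
            ‖Tf θ v (e * g * r) (j : ℤ) (ρ₁ * p.1 * g * e)‖ := by
          have h1 := H3.measurable_TG hθ (e * g * r) (j : ℤ)
          have h2 : Measurable fun v : ℝ =>
            ‖H3.TG θ (e * g * r) (j : ℤ) (v, ρ₁ * p.1 * g * e)‖ := (h1.comp (by fun_prop)).norm
          have h3 : (fun v : ℝ => ‖Tf θ v (e * g * r) (j : ℤ) (ρ₁ * p.1 * g * e)‖) =
              fun v : ℝ => ‖H3.TG θ (e * g * r) (j : ℤ) (v, ρ₁ * p.1 * g * e)‖ := by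
            funext v
            rw [H3.TG_eq (by positivity)]
          rw [h3]
          exact h2
        have m2 : Measurable fun v : ℝ =>
            ‖Tf θ v (e * g * r) (j : ℤ) (ρ₂ * p.2 * g * e)‖ := by
          have h1 := H3.measurable_TG hθ (e * g * r) (j : ℤ)
          have h2 : Measurable fun v : ℝ =>
            ‖H3.TG θ (e * g * r) (j : ℤ) (v, ρ₂ * p.2 * g * e)‖ := (h1.comp (by fun_prop)).norm
          have h3 : (fun v : ℝ => ‖Tf θ v (e * g * r) (j : ℤ) (ρ₂ * p.2 * g * e)‖) =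
              fun v : ℝ => ‖H3.TG θ (e * g * r) (j : ℤ) (v, ρ₂ * p.2 * g * e)‖ := by
            funext v
            rw [H3.TG_eq (by positivity)]
          rw [h3]
          exact h2
        refine Measurable.ennreal_ofReal ?_
        refine Measurable.mul (by fun_prop) (m1.mul m2)
    · have : w g e = 0 := by
        simp only [hw]
        rw [not_and_or, Nat.pos_iff_ne_zero, Nat.pos_iff_ne_zero, not_not, not_not] at hge
        rcases hge with rfl | rfl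
        · simp
        · simp [H3.dv_zero]
      rw [this]
      simp only [hw] at this
      rw [this]; simp
  have step2 : ∀ g e : ℕ, ∫⁻ p : ℝ × ℝ, I g e p =
      ∫⁻ v : ℝ, ENNReal.ofReal (Real.exp (-3 * π * |v|)) *
        ((∫⁻ u : ℝ, h₁ u * ‖H3.TG θ (e * g * r) (j : ℤ) (v, u * (ρ₁ * (g * e)))‖ₑ) *
          (∫⁻ u : ℝ, h₂ u * ‖H3.TG θ (e * g * r) (j : ℤ) (v, u * (ρ₂ * (g * e)))‖ₑ)) := by
    intro g e
    simp only [hI]
    rw [lintegral_lintegral_swap (hmT g e).aemeasurable]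
    refine lintegral_congr fun v => ?_
    simp only [hT]
    have m1 : Measurable fun u : ℝ => h₁ u * ‖H3.TG θ (e * g * r) (j : ℤ) (v, u * (ρ₁ * (g * e)))‖ₑ := by
      have h1 := H3.measurable_TG hθ (e * g * r) (j : ℤ)
      have h2 : Measurable fun u : ℝ => H3.TG θ (e * g * r) (j : ℤ) (v, u * (ρ₁ * (g * e))) :=
        h1.comp (by fun_prop)
      exact hh₁.mul h2.enorm
    have m2 : Measurable fun u : ℝ => h₂ u * ‖H3.TG θ (e * g * r) (j : ℤ) (v, u * (ρ₂ * (g * e)))‖ₑ := by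
      have h1 := H3.measurable_TG hθ (e * g * r) (j : ℤ)
      have h2 : Measurable fun u : ℝ => H3.TG θ (e * g * r) (j : ℤ) (v, u * (ρ₂ * (g * e))) :=
        h1.comp (by fun_prop)
      exact hh₂.mul h2.enorm
    rw [lintegral_const_mul' _ _ ENNReal.ofReal_ne_top]
    congr 1
    rw [Measure.volume_eq_prod]
    exact lintegral_prod_mul m1.aemeasurable m2.aemeasurable
  calc ∫⁻ p : ℝ × ℝ, h₁ p.1 * h₂ p.2 * ‖Aj2 H r (j : ℤ) (ρ₁ * p.1) (ρ₂ * p.2)‖ₑ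
      ≤ ∫⁻ p : ℝ × ℝ, ENNReal.ofReal (CS * (j * H) ^ (-1 / 2 + θ)) * ∑' g : ℕ, ∑' e : ℕ,
        w g e * I g e p := lintegral_mono step1
    _ = ENNReal.ofReal (CS * (j * H) ^ (-1 / 2 + θ)) * ∑' g : ℕ, ∑' e : ℕ,
        w g e * ∫⁻ p : ℝ × ℝ, I g e p := by
        rw [lintegral_const_mul' _ _ ENNReal.ofReal_ne_top]
        congr 1
        rw [lintegral_tsum]
        · refine tsum_congr fun g => ?_
          rw [lintegral_tsum]
          · refine tsum_congr fun e => ?_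
            rw [lintegral_const_mul' _ _ ENNReal.ofReal_ne_top]
          · intro e
            exact ((hmI g e).const_mul _).aemeasurable
        · intro g
          exact (Measurable.tsum fun e => (hmI g e).const_mul _).aemeasurable
    _ ≤ ENNReal.ofReal (CS * (j * H) ^ (-1 / 2 + θ)) * ∑' g : ℕ, ∑' e : ℕ,
        (ENNReal.ofReal B * (Jm j₁ + 1) * (Nh θ h₁ * Nh θ h₂)) *
          (ENNReal.ofReal (dv g ^ (3 + AG) * (g : ℝ) ^ (-1 - θ)) *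
          ENNReal.ofReal (dv e ^ (2 + AG) * (e : ℝ) ^ (-1 - θ))) := by
        refine mul_le_mul_right (ENNReal.tsum_le_tsum fun g => ENNReal.tsum_le_tsum fun e => ?_) _
        by_cases hge : 0 < g ∧ 0 < e
        · have hg' : (0 : ℝ) < g := by exact_mod_cast hge.1
          have he' : (0 : ℝ) < e := by exact_mod_cast hge.2
          have hin := inner2 hθ hCF hCG (AG := AG) r j₁ j₂ hr hj₂
            (fun v => hF θ hθ hθ8 v j₁ hj₁0) (fun v R hR => hG θ hθ hθ8 v j₁ R hR) hv hge.1 hge.2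
            hρ₁ hρ₂ hh₁ hh₂ h₁0 h₂0
          rw [step2 g e]
          refine (mul_le_mul_right hin _).trans ?_
          rw [← hB]
          have hdg := H3.dv_nonneg g
          have hde := H3.dv_nonneg e
          calc w g e * (ENNReal.ofReal (B * (dv g ^ AG * dv e ^ AG *
                ((g : ℝ) * e) ^ (-2 - 2 * θ))) * (Jm j₁ + 1) * (Nh θ h₁ * Nh θ h₂))
              = ENNReal.ofReal B * (Jm j₁ + 1) * (Nh θ h₁ * Nh θ h₂) * ENNReal.ofReal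
                ((g * dv g ^ 3 * (dv e ^ 2 * (e : ℝ) ^ (1 - 2 * θ))) *
                (dv g ^ AG * dv e ^ AG * ((g : ℝ) * e) ^ (-2 - 2 * θ))) := by
                simp only [hw]
                rw [ENNReal.ofReal_mul hB0, ENNReal.ofReal_mul (p := g * dv g ^ 3 *
                  (dv e ^ 2 * (e : ℝ) ^ (1 - 2 * θ))) (by positivity)]
                ring
            _ ≤ ENNReal.ofReal B * (Jm j₁ + 1) * (Nh θ h₁ * Nh θ h₂) * ENNReal.ofReal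
                ((dv g ^ (3 + AG) * (g : ℝ) ^ (-1 - θ)) *
                  (dv e ^ (2 + AG) * (e : ℝ) ^ (-1 - θ))) := by
                exact mul_le_mul_right (ENNReal.ofReal_le_ofReal (H3.weight_le hθ AG hge.1 hge.2)) _
            _ = _ := by rw [ENNReal.ofReal_mul (p := dv g ^ (3 + AG) * (g : ℝ) ^ (-1 - θ))
                          (by positivity)]
        · have : w g e = 0 := by
            simp only [hw]
            rw [not_and_or, Nat.pos_iff_ne_zero, Nat.pos_iff_ne_zero, not_not, not_not] at hge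
            rcases hge with rfl | rfl
            · simp
            · simp [H3.dv_zero]
          rw [this]; simp
    _ = ENNReal.ofReal (CS * (j * H) ^ (-1 / 2 + θ)) * ((ENNReal.ofReal B * (Jm j₁ + 1) *
        (Nh θ h₁ * Nh θ h₂)) *
        ((∑' g : ℕ, ENNReal.ofReal (dv g ^ (3 + AG) * (g : ℝ) ^ (-1 - θ))) *
          ∑' e : ℕ, ENNReal.ofReal (dv e ^ (2 + AG) * (e : ℝ) ^ (-1 - θ)))) := by
        congr 1
        rw [← ENNReal.tsum_mul_right, ← ENNReal.tsum_mul_left]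
        refine tsum_congr fun g => ?_
        rw [← ENNReal.tsum_mul_left, ← ENNReal.tsum_mul_left]
    _ ≤ ENNReal.ofReal (CS * (j * H) ^ (-1 / 2 + θ)) * ((ENNReal.ofReal B * (Jm j₁ + 1) *
        (Nh θ h₁ * Nh θ h₂)) *
        (ENNReal.ofReal (C1 * (1 / θ) ^ A1) * ENNReal.ofReal (C2 * (1 / θ) ^ A2))) := by
        gcongr
        · exact h1 θ hθ (by linarith)
        · exact h2 θ hθ (by linarith)
    _ = ENNReal.ofReal ((CS * (j * H) ^ (-1 / 2 + θ)) * (B * ((C1 * (1 / θ) ^ A1) *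
        (C2 * (1 / θ) ^ A2)))) * (Jm j₁ + 1) * (Nh θ h₁ * Nh θ h₂) := by
        rw [ENNReal.ofReal_mul (p := CS * (j * H) ^ (-1 / 2 + θ)) (by positivity),
          ENNReal.ofReal_mul (p := B) hB0,
          ENNReal.ofReal_mul (p := C1 * (1 / θ) ^ A1) (by positivity)]
        ring
    _ ≤ _ := by
        gcongr ENNReal.ofReal ?_ * _ * _
        have hθ1 : 1 ≤ 1 / θ := by rw [le_div_iff₀ hθ]; linarith
        calc (CS * (j * H) ^ (-1 / 2 + θ)) * (B * ((C1 * (1 / θ) ^ A1) * (C2 * (1 / θ) ^ A2)))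
            = CS * M * CF * CG * C1 * C2 * (1 / θ) ^ (AG + 2 + A1 + A2) * dv r ^ AG * dv j₂ ^ AG *
              (j * H) ^ (-1 / 2 + θ) * (ρ₁ * ρ₂) ^ (-1 - θ) := by rw [hB]; ring
          _ ≤ CS * M * CF * CG * C1 * C2 * (1 / θ) ^ (AG + 2 + A1 + A2) *
              dv r ^ (AG + 2 + A1 + A2) * dv j₂ ^ (AG + 2 + A1 + A2) *
              (j * H) ^ (-1 / 2 + θ) * (ρ₁ * ρ₂) ^ (-1 - θ) := by
              gcongr <;> omega
          _ = _ := by rfl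

end Tw

end P004
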