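import Vale.Agent.P004.H253.Tw3
import Vale.Agent.P004.H253.Tw4

/-!
# P004, module D (twisted bilinear estimate), part 6: regrouping
-/

open Real MeasureTheory Set Filter Topology
open scoped ENNReal NumberTheorySymbols ArithmeticFunction.Moebius

namespace P004

namespace Tw

lemma sum_div_mul {a b : ℕ} (hab : a.Coprime b) (f : ℕ → ℝ) :
    ∑ d ∈ (a * b).divisors, f d = ∑ x ∈ a.divisors, ∑ y ∈ b.divisors, f (x * y) := by
  rw [Nat.divisors_mul, Finset.mul_def, Finset.sum_image hab.mul_injOn_divisors,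
    Finset.sum_product]

/-- the coefficient of the divisor `d` of `gg k` -/
noncomputable def cd (k j d : ℕ) : ℝ :=
  (μ d : ℝ) / (d * √(qf k : ℝ)) * (if d ∣ j then chi (j : ℤ) (qf k) else 0)

lemma coprime_of_primes {k R s : ℕ} (hkR : ∀ p : ℕ, p.Prime → p ∣ k → p ∣ R) (hs : s.Coprime R) :
    s.Coprime k := by
  apply Nat.coprime_of_dvd
  intro p hp hps hpk
  have h1 := hkR p hp hpk
  have h2 := Nat.dvd_gcd hps h1
  rw [hs] at h2
  exact hp.one_lt.ne' (Nat.dvd_one.1 h2)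

lemma alg1 (a G l1 l2 s1 s2 E mx my x y sq cq cm : ℝ) (hs1 : s1 ≠ 0) (hs2 : s2 ≠ 0)
    (hx : x ≠ 0) (hy : y ≠ 0) (hsq : sq ≠ 0) :
    a * ((l1 * s1) * (l2 * s2)) * E * ((mx * my) / ((x * y) * (sq * (s1 * s2))) *
      ((cq * cm) * G)) = mx / (x * sq) * cq * ((a * (l1 * l2) * cm) * (my / y * G) * E) := by
  field_simp

/-- the identity for one triple -/
lemma term_id (hC : StCoef) (H : ℝ) {k R : ℕ} (j : ℕ) (hk : k ≠ 0)
    (hkR : ∀ p : ℕ, p.Prime → p ∣ k → p ∣ R) (U V : ℝ) {g m₁ m₂ : ℕ}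
    (hs : Squarefree (g * m₁ * m₂)) (hc : (g * m₁ * m₂).Coprime R) :
    c1 U (g * m₁) * c1 V (g * m₂) * Tj H j (k * ((g * m₁) * (g * m₂))) =
      ∑ d ∈ (gg k).divisors, cd k j d *
        Aj2Term (H / ((d : ℝ) ^ 2 * qf k)) R j U V (g, m₁, m₂) := by
  obtain ⟨hg, hm1, hm2, c12, c13, hgcd, hqq⟩ := H1.gcd_facts hs
  have hck : (g * m₁ * m₂).Coprime k := coprime_of_primes hkR hc
  have hcg : (g * m₁ * m₂).Coprime (gg k) := Nat.Coprime.coprime_dvd_right (gg_dvd hk) hck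
  have hcq : (g * m₁ * m₂).Coprime (qf k) := Nat.Coprime.coprime_dvd_right (qf_dvd hk) hck
  have hgg : (gg k).Coprime g :=
    (Nat.Coprime.coprime_dvd_left (Dvd.intro (m₁ * m₂) (by ring)) hcg).symm
  have hqm : (qf k).Coprime (m₁ * m₂) :=
    (Nat.Coprime.coprime_dvd_left ⟨g, by ring⟩ hcq).symm
  have hsm : Squarefree (m₁ * m₂) := hs.squarefree_of_dvd ⟨g, by ring⟩
  have hsq : Squarefree (qf k * (m₁ * m₂)) := by
    rw [Nat.squarefree_mul_iff]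
    exact ⟨hqm, qf_sq k, hsm⟩
  have hn : k * ((g * m₁) * (g * m₂)) = (gg k * g) * (gg k * g) * (qf k * (m₁ * m₂)) := by
    conv_lhs => rw [← gg_mul hk]
    ring
  have hgg0 : gg k * g ≠ 0 := Nat.mul_ne_zero (gg_ne_zero k) hg
  have hT : Tj H j (k * ((g * m₁) * (g * m₂))) =
      ∑ x ∈ (gg k).divisors, ∑ y ∈ g.divisors,
        (μ (x * y) : ℝ) / (((x * y : ℕ) : ℝ) * √((qf k * (m₁ * m₂) : ℕ) : ℝ)) *
          (if x * y ∣ j then chi (j : ℤ) (qf k * (m₁ * m₂)) *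
            Gk ((j : ℝ) * H / ((((x * y : ℕ) : ℝ)) ^ 2 * ((qf k * (m₁ * m₂) : ℕ) : ℝ))) else 0) := by
    unfold Tj
    rw [hn, gg_eq hgg0 hsq, qf_eq hgg0 hsq, sum_div_mul hgg]
  rw [hT, Finset.mul_sum]
  refine Finset.sum_congr rfl fun x hx => ?_
  unfold Aj2Term cd
  simp only
  rw [if_pos (show Squarefree (g * m₁ * m₂) ∧ (g * m₁ * m₂).Coprime R from ⟨hs, hc⟩)]
  have hxg : x ∣ gg k := Nat.dvd_of_mem_divisors hx
  have m1p : (0 : ℝ) < √(m₁ : ℝ) := Real.sqrt_pos.2 (by exact_mod_cast Nat.pos_of_ne_zero hm1)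
  have m2p : (0 : ℝ) < √(m₂ : ℝ) := Real.sqrt_pos.2 (by exact_mod_cast Nat.pos_of_ne_zero hm2)
  have qp : (0 : ℝ) < √(qf k : ℝ) :=
    Real.sqrt_pos.2 (by exact_mod_cast Nat.pos_of_ne_zero (qf_sq k).ne_zero)
  have hx0 : (0 : ℝ) < x := by exact_mod_cast Nat.pos_of_mem_divisors hx
  have hq0 : (0 : ℝ) < qf k := by exact_mod_cast Nat.pos_of_ne_zero (qf_sq k).ne_zero
  have hm1p : (0 : ℝ) < m₁ := by exact_mod_cast Nat.pos_of_ne_zero hm1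
  have hm2p : (0 : ℝ) < m₂ := by exact_mod_cast Nat.pos_of_ne_zero hm2
  have e0 : c1 U (g * m₁) * c1 V (g * m₂) = (ca g : ℝ) ^ 2 *
      ((lam m₁ * √(m₁ : ℝ)) * (lam m₂ * √(m₂ : ℝ))) * Real.exp (-π * g * (m₁ * U + m₂ * V)) := by
    have e1 : Real.exp (-π * ((g * m₁ : ℕ) : ℝ) * U) * Real.exp (-π * ((g * m₂ : ℕ) : ℝ) * V) =
        Real.exp (-π * g * (m₁ * U + m₂ * V)) := by
      rw [← Real.exp_add]
      congr 1
      push_cast
      ring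
    have e2 : lam m₁ * √(m₁ : ℝ) = ca m₁ := by unfold lam; field_simp
    have e3 : lam m₂ * √(m₂ : ℝ) = ca m₂ := by unfold lam; field_simp
    unfold c1
    rw [e2, e3, ← e1, hC.mul _ _ c12, hC.mul _ _ c13]
    push_cast
    ring
  have e4 : √((qf k * (m₁ * m₂) : ℕ) : ℝ) = √(qf k : ℝ) * (√(m₁ : ℝ) * √(m₂ : ℝ)) := by
    push_cast
    rw [Real.sqrt_mul (by positivity), Real.sqrt_mul (by positivity)]
  rw [e0]
  by_cases hxj : x ∣ j
  · rw [if_pos hxj, Finset.mul_sum, Finset.mul_sum, Finset.sum_mul, Finset.mul_sum]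
    refine Finset.sum_congr rfl fun y hy => ?_
    have hyg : y ∣ g := Nat.dvd_of_mem_divisors hy
    have hy0 : (0 : ℝ) < y := by exact_mod_cast Nat.pos_of_mem_divisors hy
    have hxy : x.Coprime y :=
      Nat.Coprime.coprime_dvd_left hxg (Nat.Coprime.coprime_dvd_right hyg hgg)
    have hmu : ((μ (x * y) : ℤ) : ℝ) = (μ x : ℝ) * (μ y : ℝ) := by
      rw [ArithmeticFunction.isMultiplicative_moebius.map_mul_of_coprime hxy]
      push_cast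
      ring
    have hdvd : (x * y ∣ j) ↔ y ∣ j := by
      constructor
      · exact fun h => dvd_trans (dvd_mul_left y x) h
      · exact fun h => hxy.mul_dvd_of_dvd_of_dvd hxj h
    have hdvd2 : ((y : ℤ) ∣ (j : ℤ)) ↔ y ∣ j := Int.natCast_dvd_natCast
    have harg : (j : ℝ) * H / ((((x * y : ℕ) : ℝ)) ^ 2 * ((qf k * (m₁ * m₂) : ℕ) : ℝ)) =
        |((j : ℤ) : ℝ)| * (H / ((x : ℝ) ^ 2 * qf k)) / ((y : ℝ) ^ 2 * (m₁ * m₂)) := by
      rw [Int.cast_natCast, Nat.abs_cast]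
      push_cast
      field_simp
    have hchi : chi (j : ℤ) (qf k * (m₁ * m₂)) = chi (j : ℤ) (qf k) * chi (j : ℤ) (m₁ * m₂) :=
      H1.chi_mul _ (qf_sq k).ne_zero (Nat.mul_ne_zero hm1 hm2)
    rw [hmu, e4, harg, hchi, Nat.cast_mul x y]
    simp only [hdvd, hdvd2]
    by_cases hyj : y ∣ j
    · rw [if_pos hyj, if_pos hyj]
      exact alg1 _ _ _ _ _ _ _ _ _ _ _ _ _ _ m1p.ne' m2p.ne' hx0.ne' hy0.ne' qp.ne'
    · rw [if_neg hyj, if_neg hyj]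
      simp only [mul_zero, zero_mul]
  · rw [if_neg hxj, mul_zero, zero_mul]
    apply mul_eq_zero_of_right
    refine Finset.sum_eq_zero fun y _ => ?_
    rw [if_neg (fun h => hxj (dvd_trans (dvd_mul_right x y) h)), mul_zero]

/-- regrouping by the greatest common divisor -/
lemma regroup_gcd (R : ℕ) (B : ℕ × ℕ → ℝ) (T : ℕ × ℕ × ℕ → ℝ) (hB : ∀ s, B s ≠ 0 → Cs R s)
    (hT : ∀ t, T t ≠ 0 → Squarefree (t.1 * t.2.1 * t.2.2) ∧ (t.1 * t.2.1 * t.2.2).Coprime R)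
    (h : ∀ g m₁ m₂ : ℕ, Squarefree (g * m₁ * m₂) → (g * m₁ * m₂).Coprime R →
      B (g * m₁, g * m₂) = T (g, m₁, m₂)) : ∑' s, B s = ∑' t, T t := by
  refine tsum_eq_tsum_of_ne_zero_bij
    (fun t : Function.support T => (t.1.1 * t.1.2.1, t.1.1 * t.1.2.2)) ?_ ?_ ?_
  · rintro ⟨⟨g, m₁, m₂⟩, ht⟩ ⟨⟨g', m₁', m₂'⟩, ht'⟩ h
    obtain ⟨hs, -⟩ := hT _ ht
    obtain ⟨hs', -⟩ := hT _ ht'
    obtain ⟨hg, -, -, -, -, hgcd, -⟩ := H1.gcd_facts hs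
    obtain ⟨hg', -, -, -, -, hgcd', -⟩ := H1.gcd_facts hs'
    simp only [Prod.mk.injEq] at h hgcd hgcd' hg
    obtain ⟨h1, h2⟩ := h
    have e : g = g' := by rw [← hgcd, ← hgcd', h1, h2]
    subst e
    have e1 : m₁ = m₁' := Nat.eq_of_mul_eq_mul_left (Nat.pos_of_ne_zero hg) h1
    have e2 : m₂ = m₂' := Nat.eq_of_mul_eq_mul_left (Nat.pos_of_ne_zero hg) h2
    subst e1; subst e2
    rfl
  · intro p hp
    have hp' : B p ≠ 0 := hp
    obtain ⟨⟨s1, r1⟩, s2, r2⟩ := hB p hp'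
    obtain ⟨n₁, n₂⟩ := p
    simp only at s1 s2 r1 r2
    obtain ⟨a, ha⟩ := Nat.gcd_dvd_left n₁ n₂
    obtain ⟨b, hb⟩ := Nat.gcd_dvd_right n₁ n₂
    set g := n₁.gcd n₂ with hgdef
    have hg0 : 0 < g := Nat.gcd_pos_of_pos_left _ (Nat.pos_of_ne_zero s1.ne_zero)
    have hab : Nat.Coprime a b := by
      have h1 := Nat.coprime_div_gcd_div_gcd (m := n₁) (n := n₂) hg0
      rw [← hgdef] at h1
      have ea : n₁ / g = a := Nat.div_eq_of_eq_mul_right hg0 ha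
      have eb : n₂ / g = b := Nat.div_eq_of_eq_mul_right hg0 hb
      rwa [ea, eb] at h1
    rw [ha] at s1 r1
    rw [hb] at s2 r2
    have hgb : Nat.Coprime g b := ((Nat.squarefree_mul_iff).1 s2).1
    have hcop : Nat.Coprime (g * a) b := Nat.Coprime.mul_left hgb hab
    have hs : Squarefree (g * a * b) := by
      rw [Nat.squarefree_mul_iff]
      exact ⟨hcop, s1, ((Nat.squarefree_mul_iff).1 s2).2.2⟩
    have hr : (g * a * b).Coprime R :=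
      Nat.Coprime.mul_left r1 (Nat.Coprime.coprime_dvd_left (Dvd.intro_left g rfl) r2)
    have key := h g a b hs hr
    refine ⟨⟨(g, a, b), ?_⟩, ?_⟩
    · rw [Function.mem_support, ← key, ← ha, ← hb]
      exact hp'
    · simp only [Prod.mk.injEq]
      exact ⟨ha.symm, hb.symm⟩
  · rintro ⟨⟨g, m₁, m₂⟩, ht⟩
    obtain ⟨hs, hr⟩ := hT _ ht
    exact h g m₁ m₂ hs hr

lemma Aj2Term_ne_zero {H : ℝ} {R : ℕ} {j : ℤ} {U V : ℝ} {t : ℕ × ℕ × ℕ}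
    (h : Aj2Term H R j U V t ≠ 0) :
    Squarefree (t.1 * t.2.1 * t.2.2) ∧ (t.1 * t.2.1 * t.2.2).Coprime R := by
  unfold Aj2Term at h
  by_contra h1
  rw [if_neg h1] at h
  exact h rfl

lemma summable_Aj2Term (hC : StCoef) (hK : StKer) (H : ℝ) (R : ℕ) (j : ℤ) {U V : ℝ} (hU : 0 < U)
    (hV : 0 < V) : Summable (Aj2Term H R j U V) := by
  have s1 := Real.summable_pow_mul_exp_neg_nat_mul 5 (r := π / 2 * U) (by positivity)
  have s2 := Real.summable_pow_mul_exp_neg_nat_mul 1 (r := π / 2 * U) (by positivity)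
  have s3 := Real.summable_pow_mul_exp_neg_nat_mul 1 (r := π * V) (by positivity)
  have s4 := s2.mul_of_nonneg s3 (fun _ => by positivity) (fun _ => by positivity)
  have s5 := (s1.mul_of_nonneg s4 (fun _ => by positivity) (fun _ => by positivity)).mul_left 5040
  refine Summable.of_norm_bounded s5 ?_
  rintro ⟨g, m₁, m₂⟩
  by_cases h0 : Aj2Term H R j U V (g, m₁, m₂) = 0
  · rw [h0, norm_zero]; positivity
  obtain ⟨hs, hr⟩ := Aj2Term_ne_zero h0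
  obtain ⟨hg, hm1, hm2, -, -, -, -⟩ := H1.gcd_facts hs
  have hg' : (1 : ℝ) ≤ g := by exact_mod_cast Nat.pos_of_ne_zero hg
  have hm1' : (1 : ℝ) ≤ m₁ := by exact_mod_cast Nat.pos_of_ne_zero hm1
  have hm2' : (1 : ℝ) ≤ m₂ := by exact_mod_cast Nat.pos_of_ne_zero hm2
  have e : Aj2Term H R j U V (g, m₁, m₂) = base2 H j U V g m₁ m₂ := by
    unfold Aj2Term base2
    simp only at hs hr ⊢
    rw [if_pos ⟨hs, hr⟩]
  rw [e, Real.norm_eq_abs]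
  refine (base2_le hC hK H j U V g m₁ m₂).trans ?_
  have h1 : (ca g : ℝ) ^ 2 ≤ (g : ℝ) ^ 4 := by
    have := H1.abs_ca_le hC g
    calc (ca g : ℝ) ^ 2 = |(ca g : ℝ)| ^ 2 := (sq_abs _).symm
      _ ≤ ((g : ℝ) ^ 2) ^ 2 := by gcongr
      _ = (g : ℝ) ^ 4 := by ring
  have h2 : Real.exp (-(π * g * U) * m₁) ≤
      Real.exp (-(π / 2 * U) * g) * Real.exp (-(π / 2 * U) * m₁) := by
    rw [← Real.exp_add]
    apply Real.exp_le_exp.2
    have h3 : (g : ℝ) + m₁ ≤ 2 * (g * m₁) := by nlinarith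
    have h4 : 0 < π / 2 * U := by positivity
    nlinarith
  have h3 : Real.exp (-(π * g * V) * m₂) ≤ Real.exp (-(π * V) * m₂) := by
    apply Real.exp_le_exp.2
    have h4 : 0 < π * V * m₂ := by positivity
    nlinarith
  calc (ca g : ℝ) ^ 2 * (5040 * g) * ((m₁ * Real.exp (-(π * g * U) * m₁)) *
        (m₂ * Real.exp (-(π * g * V) * m₂)))
      ≤ (g : ℝ) ^ 4 * (5040 * g) * ((m₁ * (Real.exp (-(π / 2 * U) * g) *
          Real.exp (-(π / 2 * U) * m₁))) * (m₂ * Real.exp (-(π * V) * m₂))) := by gcongr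
    _ = _ := by ring

open Classical in
/-- the sum over `s` as a combination of the `Aj2` -/
lemma sum_s (hC : StCoef) (hK : StKer) (H : ℝ) {k R : ℕ} (j : ℕ) (hk : k ≠ 0)
    (hkR : ∀ p : ℕ, p.Prime → p ∣ k → p ∣ R) {U V : ℝ} (hU : 0 < U) (hV : 0 < V) :
    ∑' s : ℕ × ℕ, (if Cs R s then c1 U s.1 * c1 V s.2 * Tj H j (k * (s.1 * s.2)) else 0) =
      ∑ d ∈ (gg k).divisors, cd k j d * Aj2 (H / ((d : ℝ) ^ 2 * qf k)) R j U V := by
  have h1 : ∑' s : ℕ × ℕ, (if Cs R s then c1 U s.1 * c1 V s.2 * Tj H j (k * (s.1 * s.2)) else 0) =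
      ∑' t : ℕ × ℕ × ℕ, ∑ d ∈ (gg k).divisors, cd k j d *
        Aj2Term (H / ((d : ℝ) ^ 2 * qf k)) R j U V t := by
    refine regroup_gcd R _ _ ?_ ?_ ?_
    · intro s hs
      by_contra h
      exact hs (if_neg h)
    · intro t ht
      by_contra h
      apply ht
      refine Finset.sum_eq_zero fun d _ => ?_
      have : Aj2Term (H / ((d : ℝ) ^ 2 * qf k)) R j U V t = 0 := by
        by_contra h2
        exact h (Aj2Term_ne_zero h2)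
      rw [this, mul_zero]
    · intro g m₁ m₂ hs hr
      have hCs : Cs R (g * m₁, g * m₂) :=
        ⟨⟨hs.squarefree_of_dvd (Dvd.intro m₂ rfl),
          Nat.Coprime.coprime_dvd_left (Dvd.intro m₂ rfl) hr⟩,
         ⟨hs.squarefree_of_dvd ⟨m₁, by ring⟩, Nat.Coprime.coprime_dvd_left ⟨m₁, by ring⟩ hr⟩⟩
      rw [if_pos hCs]
      exact term_id hC H j hk hkR U V hs hr
  rw [h1, Summable.tsum_finsetSum]
  · refine Finset.sum_congr rfl fun d _ => ?_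
    rw [tsum_mul_left]
    rfl
  · intro d _
    exact (summable_Aj2Term hC hK _ R j hU hV).mul_left _

lemma abs_cd_le {k j d : ℕ} (hd : 0 < d) : |cd k j d| ≤ 1 / (d * √(qf k : ℝ)) := by
  have qp : (0 : ℝ) < √(qf k : ℝ) :=
    Real.sqrt_pos.2 (by exact_mod_cast Nat.pos_of_ne_zero (qf_sq k).ne_zero)
  have hd' : (0 : ℝ) < d := by exact_mod_cast hd
  unfold cd
  rw [abs_mul, abs_div, abs_of_pos (by positivity : (0 : ℝ) < d * √(qf k : ℝ))]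
  have h1 := abs_mu_le d
  have h2 : |(if d ∣ j then chi (j : ℤ) (qf k) else 0)| ≤ 1 := by
    split_ifs
    · exact H1.abs_chi_le _ _
    · simp
  calc |(μ d : ℝ)| / (d * √(qf k : ℝ)) * |(if d ∣ j then chi (j : ℤ) (qf k) else 0)|
      ≤ 1 / (d * √(qf k : ℝ)) * 1 := by gcongr
    _ = _ := mul_one _

/-- the modulus `k = t r₁ d₁ r₂ d₂` -/
def kk (t : ℕ) (i : (Pw × Pw) × (ℕ × ℕ)) : ℕ := t * (i.1.1 * i.2.1) * (i.1.2 * i.2.2)

open Classical in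
/-- the bound for the `j`-th dual sum -/
lemma Sj_le (hC : StCoef) (hK : StKer) (hDec : StDecII) {H : ℝ} (hH : 0 < H) {t : ℕ} (ht : t ≠ 0)
    (j : ℕ) {u₁ u₂ : ℝ} (h₁ : 0 < u₁) (h₂ : 0 < u₂) :
    ‖Sj H t (j + 1) u₁ u₂‖ₑ ≤ ∑' i : (Pw × Pw) × (ℕ × ℕ), if Cd t i then
      ENNReal.ofReal |(ca i.1.1 : ℝ) * ca i.2.1 * (ca i.1.2 * ca i.2.2)| *
        ∑ d ∈ (gg (kk t i)).divisors, ENNReal.ofReal (1 / (d * √(qf (kk t i) : ℝ))) *
          ‖Aj2 (H / ((d : ℝ) ^ 2 * qf (kk t i))) (t * i.1.1 * i.1.2) ((j + 1 : ℕ) : ℤ)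
            (((i.1.1 : ℕ) * i.2.1 : ℝ) * u₁) (((i.1.2 : ℕ) * i.2.2 : ℝ) * u₂)‖ₑ else 0 := by
  unfold Sj
  refine (hDec t ht _ (summable_Sj hC hK hH ht j h₁ h₂) fun p hp => by
    rw [cc_zero hC _ _ hp, zero_mul]).trans ?_
  refine ENNReal.tsum_le_tsum fun i => ?_
  by_cases hi : Cd t i
  swap
  · rw [if_neg hi, if_neg hi]
  rw [if_pos hi, if_pos hi]
  obtain ⟨⟨⟨r₁, hr₁⟩, ⟨r₂, hr₂⟩⟩, ⟨d₁, d₂⟩⟩ := i
  obtain ⟨⟨hd₁, hdr₁, hdR₁⟩, ⟨hd₂, hdr₂, hdR₂⟩⟩ := hi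
  simp only at hd₁ hdr₁ hdR₁ hd₂ hdr₂ hdR₂ ⊢
  set R : ℕ := t * r₁ * r₂ with hR
  set k : ℕ := kk t ((⟨r₁, hr₁⟩, ⟨r₂, hr₂⟩), (d₁, d₂)) with hk
  have hkdef : k = t * (r₁ * d₁) * (r₂ * d₂) := rfl
  have hk0 : k ≠ 0 := by
    rw [hkdef]
    exact Nat.mul_ne_zero (Nat.mul_ne_zero ht (Nat.mul_ne_zero hr₁.1 hd₁.ne_zero))
      (Nat.mul_ne_zero hr₂.1 hd₂.ne_zero)
  have hkR : ∀ p : ℕ, p.Prime → p ∣ k → p ∣ R := by
    intro p hp hpk
    rw [hkdef] at hpk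
    rcases (hp.dvd_mul).1 hpk with h | h
    · rcases (hp.dvd_mul).1 h with h | h
      · rw [hR, mul_assoc]; exact h.mul_right _
      · rcases (hp.dvd_mul).1 h with h | h
        · rw [hR]; exact (h.mul_left t).mul_right r₂
        · exact h.trans hdR₁
    · rcases (hp.dvd_mul).1 h with h | h
      · rw [hR]; exact h.mul_left _
      · exact h.trans hdR₂
  have hr₁p : (0 : ℝ) < r₁ := by exact_mod_cast Nat.pos_of_ne_zero hr₁.1
  have hr₂p : (0 : ℝ) < r₂ := by exact_mod_cast Nat.pos_of_ne_zero hr₂.1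
  have hd₁p : (0 : ℝ) < d₁ := by exact_mod_cast Nat.pos_of_ne_zero hd₁.ne_zero
  have hd₂p : (0 : ℝ) < d₂ := by exact_mod_cast Nat.pos_of_ne_zero hd₂.ne_zero
  have hsum : ∑' s : ℕ × ℕ, (if Cs R s then
      cc u₁ u₂ (r₁ * d₁ * s.1, r₂ * d₂ * s.2) *
        Tj H (j + 1) (t * (r₁ * d₁ * s.1 * (r₂ * d₂ * s.2))) else 0) =
      ((ca r₁ : ℝ) * ca d₁ * (ca r₂ * ca d₂)) * ∑ d ∈ (gg k).divisors, cd k (j + 1) d *
        Aj2 (H / ((d : ℝ) ^ 2 * qf k)) R ((j + 1 : ℕ) : ℤ) (((r₁ : ℝ) * d₁) * u₁)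
          (((r₂ : ℝ) * d₂) * u₂) := by
    rw [← sum_s hC hK H (j + 1) hk0 hkR (by positivity) (by positivity), ← tsum_mul_left]
    refine tsum_congr fun s => ?_
    by_cases hs : Cs R s
    swap
    · rw [if_neg hs, if_neg hs, mul_zero]
    rw [if_pos hs, if_pos hs]
    obtain ⟨⟨hs₁, hsR₁⟩, ⟨hs₂, hsR₂⟩⟩ := hs
    have hk' : t * (r₁ * d₁ * s.1 * (r₂ * d₂ * s.2)) = k * (s.1 * s.2) := by
      rw [hkdef]; ring
    have a1 : r₁ ∣ R := ⟨t * r₂, by rw [hR]; ring⟩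
    have a2 : r₂ ∣ R := ⟨t * r₁, by rw [hR]; ring⟩
    have q1 : Nat.Coprime (r₁ * d₁) s.1 :=
      Nat.Coprime.mul_left (Nat.Coprime.coprime_dvd_right a1 hsR₁).symm
        (Nat.Coprime.coprime_dvd_right hdR₁ hsR₁).symm
    have q2 : Nat.Coprime (r₂ * d₂) s.2 :=
      Nat.Coprime.mul_left (Nat.Coprime.coprime_dvd_right a2 hsR₂).symm
        (Nat.Coprime.coprime_dvd_right hdR₂ hsR₂).symm
    have e1 : c1 u₁ (r₁ * d₁ * s.1) = (ca r₁ : ℝ) * ca d₁ * c1 (((r₁ : ℝ) * d₁) * u₁) s.1 := by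
      unfold c1
      rw [hC.mul _ _ q1, hC.mul _ _ hdr₁.symm]
      push_cast
      rw [show -π * ((r₁ : ℝ) * d₁ * s.1) * u₁ = -π * s.1 * (r₁ * d₁ * u₁) by ring]
      ring
    have e2 : c1 u₂ (r₂ * d₂ * s.2) = (ca r₂ : ℝ) * ca d₂ * c1 (((r₂ : ℝ) * d₂) * u₂) s.2 := by
      unfold c1
      rw [hC.mul _ _ q2, hC.mul _ _ hdr₂.symm]
      push_cast
      rw [show -π * ((r₂ : ℝ) * d₂ * s.2) * u₂ = -π * s.2 * (r₂ * d₂ * u₂) by ring]
      ring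
    rw [cc_eq, hk']
    simp only
    rw [e1, e2]
    ring
  have hsum2 : ‖∑' s : ℕ × ℕ, (if Cs R s then
      cc u₁ u₂ (r₁ * d₁ * s.1, r₂ * d₂ * s.2) *
        Tj H (j + 1) (t * (r₁ * d₁ * s.1 * (r₂ * d₂ * s.2))) else 0)‖ₑ ≤
      ENNReal.ofReal |(ca r₁ : ℝ) * ca d₁ * (ca r₂ * ca d₂)| *
        ∑ d ∈ (gg k).divisors, ENNReal.ofReal (1 / (d * √(qf k : ℝ))) *
          ‖Aj2 (H / ((d : ℝ) ^ 2 * qf k)) R ((j + 1 : ℕ) : ℤ)
            (((r₁ : ℝ) * d₁) * u₁) (((r₂ : ℝ) * d₂) * u₂)‖ₑ := by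
    rw [hsum, enorm_mul, Real.enorm_eq_ofReal_abs]
    refine mul_le_mul' le_rfl ((enorm_sum_le _ _).trans (Finset.sum_le_sum fun d hd => ?_))
    rw [enorm_mul, Real.enorm_eq_ofReal_abs (cd k (j + 1) d)]
    exact mul_le_mul' (ENNReal.ofReal_le_ofReal (abs_cd_le (Nat.pos_of_mem_divisors hd))) le_rfl
  exact hsum2

end Tw
end P004
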