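import Vale.Agent.P004.H253.Tw5
import Vale.Agent.P004.H253.Tw6

/-!
# P004, module D (twisted bilinear estimate), part 7: the bound for one dual sum
-/

open Real MeasureTheory Set Filter Topology
open scoped ENNReal NumberTheorySymbols ArithmeticFunction.Moebius

namespace P004

namespace Tw

lemma measurable_Aj2Term (H : ℝ) (r : ℕ) (j : ℤ) (t : ℕ × ℕ × ℕ) :
    Measurable fun p : ℝ × ℝ => Aj2Term H r j p.1 p.2 t := by
  unfold Aj2Term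
  split_ifs
  · apply Measurable.mul measurable_const
    apply Real.measurable_exp.comp
    fun_prop
  · exact measurable_const

lemma measurable_Aj2 (H : ℝ) (r : ℕ) (j : ℤ) : Measurable fun p : ℝ × ℝ => Aj2 H r j p.1 p.2 := by
  unfold Aj2
  exact Measurable.tsum fun t => measurable_Aj2Term H r j t

lemma measurable_cc (q : ℕ × ℕ) : Measurable fun p : ℝ × ℝ => cc p.1 p.2 q := by
  unfold cc
  fun_prop

lemma measurable_Sj (H : ℝ) (t j : ℕ) : Measurable fun p : ℝ × ℝ => Sj H t j p.1 p.2 := by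
  unfold Sj
  exact Measurable.tsum fun q => (measurable_cc q).mul_const _

lemma one_le_dv {n : ℕ} (hn : n ≠ 0) : 1 ≤ dv n := H3.one_le_dv hn

lemma dv_mono {a b : ℕ} (hb : b ≠ 0) (hab : a ∣ b) : dv a ≤ dv b := by
  unfold dv
  exact_mod_cast Finset.card_le_card (Nat.divisors_subset_of_dvd hb hab)

/-- the elementary inequality removing `d² q` -/
lemma pow_rem {θ H : ℝ} (hθ : 0 < θ) (hθ8 : θ ≤ 1 / 8) (hH : 0 < H) {j d q : ℕ} (hj : 0 < j)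
    (hd : 0 < d) (hq : 0 < q) :
    1 / (d * √(q : ℝ)) * (j * (H / ((d : ℝ) ^ 2 * q))) ^ (-1 / 2 + θ) ≤
      (j * H) ^ (-1 / 2 + θ) := by
  have hd' : (1 : ℝ) ≤ d := by exact_mod_cast hd
  have hq' : (1 : ℝ) ≤ q := by exact_mod_cast hq
  have hj' : (0 : ℝ) < j := by exact_mod_cast hj
  have h1 : (j : ℝ) * (H / ((d : ℝ) ^ 2 * q)) = (j * H) * ((d : ℝ) ^ 2 * q)⁻¹ := by
    field_simp
  have hdq : (1 : ℝ) ≤ (d : ℝ) ^ 2 * q := by
    have : (1 : ℝ) ≤ (d : ℝ) ^ 2 := one_le_pow₀ hd'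
    nlinarith
  rw [h1, Real.mul_rpow (by positivity) (by positivity), Real.inv_rpow (by positivity)]
  have h2 : (((d : ℝ) ^ 2 * q) ^ (-1 / 2 + θ))⁻¹ ≤ d * √(q : ℝ) := by
    rw [← Real.rpow_neg (by positivity)]
    have h3 : (d : ℝ) * √(q : ℝ) = ((d : ℝ) ^ 2 * q) ^ (1 / 2 : ℝ) := by
      rw [← Real.sqrt_eq_rpow, Real.sqrt_mul (by positivity), Real.sqrt_sq (by positivity)]
    rw [h3]
    exact Real.rpow_le_rpow_of_exponent_le hdq (by linarith)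
  have h4 : 0 < (d : ℝ) * √(q : ℝ) := by
    have : 0 < √(q : ℝ) := Real.sqrt_pos.2 (by linarith)
    positivity
  calc 1 / (d * √(q : ℝ)) * ((j * H) ^ (-1 / 2 + θ) * (((d : ℝ) ^ 2 * q) ^ (-1 / 2 + θ))⁻¹)
      ≤ 1 / (d * √(q : ℝ)) * ((j * H) ^ (-1 / 2 + θ) * (d * √(q : ℝ))) := by gcongr
    _ = (j * H) ^ (-1 / 2 + θ) := by field_simp

lemma ofReal_assoc {a b : ℝ} (ha : 0 ≤ a) (J N : ℝ≥0∞) :
    ENNReal.ofReal a * (ENNReal.ofReal b * J * N) = ENNReal.ofReal (a * b) * J * N := by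
  rw [ENNReal.ofReal_mul ha]; ring

open Classical in
/-- the bound for one dual sum -/
theorem SjW (hC : StCoef) (hK : StKer) (hConv : StConv) (hFrac : StFrac) (hDiv : StDiv)
    (hDec : StDecII) (hWts : StWts) :
    ∃ C : ℝ, 1 ≤ C ∧ ∃ A : ℕ, ∀ θ : ℝ, 0 < θ → θ ≤ 1 / 8 → ∀ (H : ℝ) (t j₁ j₂ : ℕ), 0 < H →
      t ≠ 0 → Squarefree j₁ → 0 < j₂ →
      ∀ h₁ h₂ : ℝ → ℝ≥0∞, Measurable h₁ → Measurable h₂ → (∀ u ≤ 0, h₁ u = 0) →
      (∀ u ≤ 0, h₂ u = 0) →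
      ∫⁻ p : ℝ × ℝ, h₁ p.1 * h₂ p.2 * ‖Sj H t (j₁ * j₂ ^ 2) p.1 p.2‖ₑ ≤
      (ENNReal.ofReal (C * (1 / θ) ^ A * dv t ^ A) * (Nh θ h₁ * Nh θ h₂)) *
        ENNReal.ofReal (dv j₂ ^ A * (((j₁ * j₂ ^ 2 : ℕ) : ℝ) * H) ^ (-1 / 2 + θ)) *
          (Jm j₁ + 1) := by
  obtain ⟨C₁, hC₁, A₁, hA⟩ := Aj2W hC hK hConv hFrac hDiv
  obtain ⟨C₂, hC₂, B, hB⟩ := hWts (A₁ + 1)
  refine ⟨max 1 (C₁ * C₂), le_max_left _ _, A₁ + B, ?_⟩
  intro θ hθ hθ8 H t j₁ j₂ hH ht hj₁ hj₂ h₁ h₂ hh₁ hh₂ h₁0 h₂0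
  have hj₁0 : 0 < j₁ := Nat.pos_of_ne_zero hj₁.ne_zero
  set j : ℕ := j₁ * j₂ ^ 2 with hj
  have hj0 : 0 < j := by positivity
  have hj0' : (0 : ℝ) < j := by exact_mod_cast hj0
  have hθ1 : 1 ≤ 1 / θ := by rw [le_div_iff₀ hθ]; linarith
  have hdt := one_le_dv ht
  have hdj := one_le_dv hj₂.ne'
  obtain ⟨j', hj'⟩ : ∃ j', j = j' + 1 := ⟨j - 1, by omega⟩
  -- the inner integrals
  set ρ₁ : (Pw × Pw) × (ℕ × ℕ) → ℝ := fun i => ((i.1.1 : ℕ) * i.2.1 : ℝ) with hρ₁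
  set ρ₂ : (Pw × Pw) × (ℕ × ℕ) → ℝ := fun i => ((i.1.2 : ℕ) * i.2.2 : ℝ) with hρ₂
  set G : (Pw × Pw) × (ℕ × ℕ) → ℕ → ℝ × ℝ → ℝ≥0∞ := fun i d p => h₁ p.1 * h₂ p.2 *
    ‖Aj2 (H / ((d : ℝ) ^ 2 * qf (kk t i))) (t * i.1.1 * i.1.2) (j : ℤ)
            (ρ₁ i * p.1) (ρ₂ i * p.2)‖ₑ with hG
  have hmG : ∀ i d, Measurable (G i d) := by
    intro i d
    have m1 : Measurable fun p : ℝ × ℝ => Aj2 (H / ((d : ℝ) ^ 2 * qf (kk t i)))
        (t * i.1.1 * i.1.2) (j : ℤ) (ρ₁ i * p.1) (ρ₂ i * p.2) := by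
      have := measurable_Aj2 (H / ((d : ℝ) ^ 2 * qf (kk t i))) (t * i.1.1 * i.1.2) (j : ℤ)
      exact this.comp (g := fun q : ℝ × ℝ => Aj2 (H / ((d : ℝ) ^ 2 * qf (kk t i)))
        (t * i.1.1 * i.1.2) (j : ℤ) q.1 q.2) (f := fun p : ℝ × ℝ => (ρ₁ i * p.1, ρ₂ i * p.2))
        (by fun_prop)
    have m2 : Measurable fun p : ℝ × ℝ => h₁ p.1 := hh₁.comp measurable_fst
    have m3 : Measurable fun p : ℝ × ℝ => h₂ p.2 := hh₂.comp measurable_snd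
    exact (m2.mul m3).mul m1.enorm
  set a : (Pw × Pw) × (ℕ × ℕ) → ℝ := fun i =>
    |(ca i.1.1 : ℝ) * ca i.2.1 * (ca i.1.2 * ca i.2.2)| with ha
  have step1 : ∀ p : ℝ × ℝ, h₁ p.1 * h₂ p.2 * ‖Sj H t j p.1 p.2‖ₑ ≤
      ∑' i : (Pw × Pw) × (ℕ × ℕ), if Cd t i then ENNReal.ofReal (a i) *
        ∑ d ∈ (gg (kk t i)).divisors, ENNReal.ofReal (1 / (d * √(qf (kk t i) : ℝ))) *
          G i d p else 0 := by
    intro p
    by_cases hp1 : p.1 ≤ 0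
    · rw [h₁0 _ hp1]; simp
    by_cases hp2 : p.2 ≤ 0
    · rw [h₂0 _ hp2]; simp
    rw [not_le] at hp1 hp2
    have := Sj_le hC hK hDec hH ht j' hp1 hp2
    rw [← hj'] at this
    refine (mul_le_mul' le_rfl this).trans (le_of_eq ?_)
    rw [← ENNReal.tsum_mul_left]
    refine tsum_congr fun i => ?_
    by_cases hi : Cd t i
    swap
    · rw [if_neg hi, if_neg hi, mul_zero]
    rw [if_pos hi, if_pos hi, ← mul_assoc, mul_comm (h₁ p.1 * h₂ p.2), mul_assoc]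
    congr 1
    rw [Finset.mul_sum]
    refine Finset.sum_congr rfl fun d _ => ?_
    simp only [hG]
    ring
  have hmT : ∀ i, Measurable fun p : ℝ × ℝ => (if Cd t i then ENNReal.ofReal (a i) *
        ∑ d ∈ (gg (kk t i)).divisors, ENNReal.ofReal (1 / (d * √(qf (kk t i) : ℝ))) *
          G i d p else 0) := by
    intro i
    by_cases hi : Cd t i
    · simp only [hi, if_true]
      exact (Finset.measurable_sum _ fun d _ => (hmG i d).const_mul _).const_mul _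
    · simp only [hi, if_false]
      exact measurable_const
  set E : ℝ≥0∞ := ENNReal.ofReal (C₁ * (1 / θ) ^ A₁ * dv j₂ ^ A₁ *
    (((j₁ * j₂ ^ 2 : ℕ) : ℝ) * H) ^ (-1 / 2 + θ)) * (Jm j₁ + 1) * (Nh θ h₁ * Nh θ h₂) with hE
  have step2 : ∀ i, ∫⁻ p : ℝ × ℝ, (if Cd t i then ENNReal.ofReal (a i) *
        ∑ d ∈ (gg (kk t i)).divisors, ENNReal.ofReal (1 / (d * √(qf (kk t i) : ℝ))) *
          G i d p else 0) ≤ E * (if Cd t i then
    ENNReal.ofReal (|(ca i.1.1 : ℝ) * ca i.2.1 * (ca i.1.2 * ca i.2.2)| *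
      dv (t * (i.1.1 * i.2.1) * (i.1.2 * i.2.2)) ^ (A₁ + 1) * dv (t * i.1.1 * i.1.2) ^ (A₁ + 1) *
      ((i.1.1 : ℝ) * i.2.1 * (i.1.2 * i.2.2)) ^ (-1 - θ)) else 0) := by
    intro i
    by_cases hi : Cd t i
    swap
    · simp only [hi, if_false, lintegral_zero, mul_zero, le_refl]
    simp only [hi, if_true]
    have hr₁ : (i.1.1 : ℕ) ≠ 0 := i.1.1.2.1
    have hr₂ : (i.1.2 : ℕ) ≠ 0 := i.1.2.2.1
    have hd₁ : i.2.1 ≠ 0 := hi.1.1.ne_zero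
    have hd₂ : i.2.2 ≠ 0 := hi.2.1.ne_zero
    have hR0 : t * i.1.1 * i.1.2 ≠ 0 := Nat.mul_ne_zero (Nat.mul_ne_zero ht hr₁) hr₂
    have hk0 : kk t i ≠ 0 := by
      unfold kk
      exact Nat.mul_ne_zero (Nat.mul_ne_zero ht (Nat.mul_ne_zero hr₁ hd₁))
        (Nat.mul_ne_zero hr₂ hd₂)
    have hr₁' : (0 : ℝ) < (i.1.1 : ℕ) := by exact_mod_cast Nat.pos_of_ne_zero hr₁
    have hr₂' : (0 : ℝ) < (i.1.2 : ℕ) := by exact_mod_cast Nat.pos_of_ne_zero hr₂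
    have hd₁' : (0 : ℝ) < i.2.1 := by exact_mod_cast Nat.pos_of_ne_zero hd₁
    have hd₂' : (0 : ℝ) < i.2.2 := by exact_mod_cast Nat.pos_of_ne_zero hd₂
    have hρ₁0 : 0 < ρ₁ i := by simp only [hρ₁]; positivity
    have hρ₂0 : 0 < ρ₂ i := by simp only [hρ₂]; positivity
    have hdR := one_le_dv hR0
    have hdk := one_le_dv hk0
    have hq0 : 0 < qf (kk t i) := Nat.pos_of_ne_zero (qf_sq _).ne_zero
    have hq0' : (0 : ℝ) < qf (kk t i) := by exact_mod_cast hq0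
    set P : ℝ := C₁ * (1 / θ) ^ A₁ * dv (t * i.1.1 * i.1.2) ^ A₁ * dv j₂ ^ A₁ *
      (ρ₁ i * ρ₂ i) ^ (-1 - θ) with hP
    have hP0 : 0 ≤ P := by positivity
    have hin : ∀ d ∈ (gg (kk t i)).divisors,
        ENNReal.ofReal (1 / (d * √(qf (kk t i) : ℝ))) * ∫⁻ p : ℝ × ℝ, G i d p ≤
        ENNReal.ofReal (P * ((j : ℝ) * H) ^ (-1 / 2 + θ)) * (Jm j₁ + 1) * (Nh θ h₁ * Nh θ h₂) := by
      intro d hd
      have hd0 : 0 < d := Nat.pos_of_mem_divisors hd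
      have hd0' : (0 : ℝ) < d := by exact_mod_cast hd0
      have h := hA θ hθ hθ8 (H / ((d : ℝ) ^ 2 * qf (kk t i))) (ρ₁ i) (ρ₂ i)
        (t * i.1.1 * i.1.2) j₁ j₂ (by positivity) hρ₁0 hρ₂0 (Nat.pos_of_ne_zero hR0) hj₁ hj₂ h₁ h₂
        hh₁ hh₂ h₁0 h₂0
      refine (mul_le_mul' le_rfl h).trans ?_
      rw [ofReal_assoc (by positivity)]
      refine mul_le_mul' (mul_le_mul' (ENNReal.ofReal_le_ofReal ?_) le_rfl) le_rfl
      have h2 := pow_rem hθ hθ8 hH hj0 hd0 hq0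
      calc 1 / (d * √(qf (kk t i) : ℝ)) * (C₁ * (1 / θ) ^ A₁ * dv (t * i.1.1 * i.1.2) ^ A₁ *
            dv j₂ ^ A₁ * (((j₁ * j₂ ^ 2 : ℕ) : ℝ) * (H / ((d : ℝ) ^ 2 * qf (kk t i)))) ^
              (-1 / 2 + θ) * (ρ₁ i * ρ₂ i) ^ (-1 - θ))
          = P * (1 / (d * √(qf (kk t i) : ℝ)) *
            ((j : ℝ) * (H / ((d : ℝ) ^ 2 * qf (kk t i)))) ^ (-1 / 2 + θ)) := by
            rw [hP, hj]; ring
        _ ≤ P * ((j : ℝ) * H) ^ (-1 / 2 + θ) := mul_le_mul_of_nonneg_left h2 hP0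
    calc ∫⁻ p : ℝ × ℝ, ENNReal.ofReal (a i) *
        ∑ d ∈ (gg (kk t i)).divisors, ENNReal.ofReal (1 / (d * √(qf (kk t i) : ℝ))) * G i d p
        = ENNReal.ofReal (a i) * ∑ d ∈ (gg (kk t i)).divisors,
          ENNReal.ofReal (1 / (d * √(qf (kk t i) : ℝ))) * ∫⁻ p : ℝ × ℝ, G i d p := by
          rw [lintegral_const_mul' _ _ ENNReal.ofReal_ne_top,
            lintegral_finsetSum _ fun d _ => (hmG i d).const_mul _]
          congr 1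
          refine Finset.sum_congr rfl fun d _ => ?_
          rw [lintegral_const_mul' _ _ ENNReal.ofReal_ne_top]
      _ ≤ ENNReal.ofReal (a i) * ∑ d ∈ (gg (kk t i)).divisors,
          (ENNReal.ofReal (P * ((j : ℝ) * H) ^ (-1 / 2 + θ)) * (Jm j₁ + 1) *
            (Nh θ h₁ * Nh θ h₂)) := mul_le_mul' le_rfl (Finset.sum_le_sum hin)
      _ = ENNReal.ofReal (a i) * (ENNReal.ofReal (dv (gg (kk t i))) *
          (ENNReal.ofReal (P * ((j : ℝ) * H) ^ (-1 / 2 + θ)) * (Jm j₁ + 1) *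
            (Nh θ h₁ * Nh θ h₂))) := by
          rw [Finset.sum_const, nsmul_eq_mul]
          congr 2
          unfold dv
          rw [ENNReal.ofReal_natCast]
      _ ≤ ENNReal.ofReal (a i) * (ENNReal.ofReal (dv (kk t i)) *
          (ENNReal.ofReal (P * ((j : ℝ) * H) ^ (-1 / 2 + θ)) * (Jm j₁ + 1) *
            (Nh θ h₁ * Nh θ h₂))) := by
          gcongr
          exact dv_mono hk0 (gg_dvd hk0)
      _ = ENNReal.ofReal (a i * dv (kk t i) * (P * ((j : ℝ) * H) ^ (-1 / 2 + θ))) *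
          (Jm j₁ + 1) * (Nh θ h₁ * Nh θ h₂) := by
          rw [ENNReal.ofReal_mul (p := a i * dv (kk t i)) (by simp only [ha]; positivity),
            ENNReal.ofReal_mul (p := a i) (by simp only [ha]; positivity)]
          ring
      _ ≤ ENNReal.ofReal ((C₁ * (1 / θ) ^ A₁ * dv j₂ ^ A₁ *
            (((j₁ * j₂ ^ 2 : ℕ) : ℝ) * H) ^ (-1 / 2 + θ)) *
            (|(ca i.1.1 : ℝ) * ca i.2.1 * (ca i.1.2 * ca i.2.2)| *
            dv (t * (i.1.1 * i.2.1) * (i.1.2 * i.2.2)) ^ (A₁ + 1) *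
            dv (t * i.1.1 * i.1.2) ^ (A₁ + 1) *
            ((i.1.1 : ℝ) * i.2.1 * (i.1.2 * i.2.2)) ^ (-1 - θ))) *
          (Jm j₁ + 1) * (Nh θ h₁ * Nh θ h₂) := by
          refine mul_le_mul' (mul_le_mul' (ENNReal.ofReal_le_ofReal ?_) le_rfl) le_rfl
          have hkk : dv (kk t i) = dv (t * (i.1.1 * i.2.1) * (i.1.2 * i.2.2)) := rfl
          have e1 : dv (kk t i) ≤ dv (t * (i.1.1 * i.2.1) * (i.1.2 * i.2.2)) ^ (A₁ + 1) := by
            rw [hkk] at hdk ⊢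
            exact le_self_pow₀ hdk (by omega)
          have e2 : dv (t * i.1.1 * i.1.2) ^ A₁ ≤ dv (t * i.1.1 * i.1.2) ^ (A₁ + 1) :=
            pow_le_pow_right₀ hdR (by omega)
          have e3 : ρ₁ i * ρ₂ i = (i.1.1 : ℝ) * i.2.1 * (i.1.2 * i.2.2) := rfl
          calc a i * dv (kk t i) * (P * ((j : ℝ) * H) ^ (-1 / 2 + θ))
              = (C₁ * (1 / θ) ^ A₁ * dv j₂ ^ A₁ * ((j : ℝ) * H) ^ (-1 / 2 + θ)) *
                (a i * dv (kk t i) * dv (t * i.1.1 * i.1.2) ^ A₁ *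
                  (ρ₁ i * ρ₂ i) ^ (-1 - θ)) := by rw [hP]; ring
            _ ≤ (C₁ * (1 / θ) ^ A₁ * dv j₂ ^ A₁ * ((j : ℝ) * H) ^ (-1 / 2 + θ)) *
                (a i * dv (t * (i.1.1 * i.2.1) * (i.1.2 * i.2.2)) ^ (A₁ + 1) *
                  dv (t * i.1.1 * i.1.2) ^ (A₁ + 1) * (ρ₁ i * ρ₂ i) ^ (-1 - θ)) := by
                have : 0 ≤ a i := by simp only [ha]; positivity
                gcongr
            _ = _ := by rw [e3]
      _ = _ := by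
          rw [ENNReal.ofReal_mul (p := C₁ * (1 / θ) ^ A₁ * dv j₂ ^ A₁ *
            (((j₁ * j₂ ^ 2 : ℕ) : ℝ) * H) ^ (-1 / 2 + θ)) (by positivity), hE]
          ring
  calc ∫⁻ p : ℝ × ℝ, h₁ p.1 * h₂ p.2 * ‖Sj H t j p.1 p.2‖ₑ
      ≤ ∫⁻ p : ℝ × ℝ, ∑' i : (Pw × Pw) × (ℕ × ℕ), (if Cd t i then ENNReal.ofReal (a i) *
        ∑ d ∈ (gg (kk t i)).divisors, ENNReal.ofReal (1 / (d * √(qf (kk t i) : ℝ))) *
          G i d p else 0) := lintegral_mono step1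
    _ = ∑' i : (Pw × Pw) × (ℕ × ℕ), ∫⁻ p : ℝ × ℝ, (if Cd t i then ENNReal.ofReal (a i) *
        ∑ d ∈ (gg (kk t i)).divisors, ENNReal.ofReal (1 / (d * √(qf (kk t i) : ℝ))) *
          G i d p else 0) := lintegral_tsum fun i => (hmT i).aemeasurable
    _ ≤ ∑' i : (Pw × Pw) × (ℕ × ℕ), E * (if Cd t i then
    ENNReal.ofReal (|(ca i.1.1 : ℝ) * ca i.2.1 * (ca i.1.2 * ca i.2.2)| *
      dv (t * (i.1.1 * i.2.1) * (i.1.2 * i.2.2)) ^ (A₁ + 1) * dv (t * i.1.1 * i.1.2) ^ (A₁ + 1) *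
      ((i.1.1 : ℝ) * i.2.1 * (i.1.2 * i.2.2)) ^ (-1 - θ)) else 0) :=
        ENNReal.tsum_le_tsum step2
    _ ≤ E * ENNReal.ofReal (C₂ * (1 / θ) ^ B * dv t ^ B) := by
        rw [ENNReal.tsum_mul_left]
        exact mul_le_mul' le_rfl (hB θ hθ (by linarith) t ht)
    _ = ENNReal.ofReal ((C₁ * C₂) * (1 / θ) ^ (A₁ + B) * dv t ^ B) * (Nh θ h₁ * Nh θ h₂) *
        ENNReal.ofReal (dv j₂ ^ A₁ * (((j₁ * j₂ ^ 2 : ℕ) : ℝ) * H) ^ (-1 / 2 + θ)) *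
          (Jm j₁ + 1) := by
        have e1 : ENNReal.ofReal ((C₁ * C₂) * (1 / θ) ^ (A₁ + B) * dv t ^ B) =
            ENNReal.ofReal (C₁ * (1 / θ) ^ A₁) * ENNReal.ofReal (C₂ * (1 / θ) ^ B * dv t ^ B) := by
          rw [← ENNReal.ofReal_mul (by positivity)]
          congr 1
          rw [pow_add]
          ring
        have e2 : ENNReal.ofReal (C₁ * (1 / θ) ^ A₁ * dv j₂ ^ A₁ *
            (((j₁ * j₂ ^ 2 : ℕ) : ℝ) * H) ^ (-1 / 2 + θ)) = ENNReal.ofReal (C₁ * (1 / θ) ^ A₁) *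
            ENNReal.ofReal (dv j₂ ^ A₁ * (((j₁ * j₂ ^ 2 : ℕ) : ℝ) * H) ^ (-1 / 2 + θ)) := by
          rw [← ENNReal.ofReal_mul (by positivity)]
          congr 1
          ring
        rw [hE, e1, e2]
        ring
    _ ≤ _ := by
        gcongr
        · exact le_max_right _ _
        · omega
        · omega

end Tw
end P004
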