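import Vale.Agent.P004.H253.Tw7

/-!
# P004, module D (twisted bilinear estimate), part 8: assembly
-/

open Real MeasureTheory Set Filter Topology
open scoped ENNReal NumberTheorySymbols ArithmeticFunction.Moebius

namespace P004

namespace Tw

/-- the one-variable integral in the tail -/
lemma tail_one {θ N : ℝ} (hθ : 0 < θ) (hθ8 : θ ≤ 1 / 8) (hN : 1 ≤ N) {h : ℝ → ℝ≥0∞}
    (hh : Measurable h) (h0 : ∀ u : ℝ, u < 1 / (3 * N) → h u = 0) :
    ∫⁻ u : ℝ, h u * ENNReal.ofReal (1 / u ^ 5) ≤ Nh θ h * ENNReal.ofReal ((3 * N) ^ 4) := by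
  have hN0 : 0 < N := by linarith
  set a : ℝ := 1 / (3 * N) with ha
  have ha0 : 0 < a := by positivity
  have ha1 : a ≤ 1 := by
    rw [ha, div_le_one (by positivity)]; linarith
  have hres : ∀ {G : ℝ → ℝ≥0∞}, (∀ u < a, G u = 0) → ∫⁻ u, G u = ∫⁻ u in Ici a, G u := by
    intro G hG
    rw [← lintegral_indicator measurableSet_Ici]
    refine lintegral_congr fun u => ?_
    by_cases hu : a ≤ u
    · rw [indicator_of_mem (by exact hu)]
    · rw [indicator_of_notMem (by simpa using hu), hG u (not_le.1 hu)]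
  rw [hres (fun u hu => by rw [h0 u hu, zero_mul])]
  set f : ℝ → ℝ≥0∞ := fun u => h u * ENNReal.ofReal (u ^ ((-1 - 2 * θ) / 2)) with hf
  set g : ℝ → ℝ≥0∞ := fun u => ENNReal.ofReal (1 / u ^ 5 * u ^ ((1 + 2 * θ) / 2)) with hg
  have hmf : Measurable f := hh.mul (Measurable.ennreal_ofReal (measurable_id.pow_const _))
  have hmg : Measurable g := by
    refine Measurable.ennreal_ofReal ?_
    exact (measurable_const.div (measurable_id.pow_const 5)).mul (measurable_id.pow_const _)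
  have hcs := ENNReal.lintegral_mul_le_Lp_mul_Lq (volume.restrict (Ici a))
    Real.HolderConjugate.two_two hmf.aemeasurable hmg.aemeasurable
  have e1 : ∫⁻ u in Ici a, (f * g) u = ∫⁻ u in Ici a, h u * ENNReal.ofReal (1 / u ^ 5) := by
    refine setLIntegral_congr_fun measurableSet_Ici fun u hu => ?_
    have hu : (0 : ℝ) < u := lt_of_lt_of_le ha0 hu
    simp only [hf, hg, Pi.mul_apply]
    rw [mul_assoc, ← ENNReal.ofReal_mul (by positivity)]
    congr 2
    have : u ^ ((-1 - 2 * θ) / 2) * u ^ ((1 + 2 * θ) / 2) = 1 := by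
      rw [← Real.rpow_add hu, show (-1 - 2 * θ) / 2 + (1 + 2 * θ) / 2 = 0 by ring, Real.rpow_zero]
    calc u ^ ((-1 - 2 * θ) / 2) * (1 / u ^ 5 * u ^ ((1 + 2 * θ) / 2)) =
        1 / u ^ 5 * (u ^ ((-1 - 2 * θ) / 2) * u ^ ((1 + 2 * θ) / 2)) := by ring
      _ = _ := by rw [this, mul_one]
  have hsq : ∀ {u : ℝ}, 0 < u → ∀ x : ℝ, ENNReal.ofReal (u ^ (x / 2)) ^ (2 : ℝ) =
      ENNReal.ofReal (u ^ x) := by
    intro u hu x
    rw [ENNReal.ofReal_rpow_of_nonneg (by positivity) (by norm_num), ← Real.rpow_mul hu.le]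
    congr 2
    ring
  have e2 : ∫⁻ u in Ici a, f u ^ (2 : ℝ) ≤
      ∫⁻ u : ℝ, h u ^ 2 * ENNReal.ofReal (u ^ (-1 - 2 * θ)) := by
    calc ∫⁻ u in Ici a, f u ^ (2 : ℝ) =
        ∫⁻ u in Ici a, h u ^ 2 * ENNReal.ofReal (u ^ (-1 - 2 * θ)) := by
          refine setLIntegral_congr_fun measurableSet_Ici fun u hu => ?_
          have hu : (0 : ℝ) < u := lt_of_lt_of_le ha0 hu
          simp only [hf]
          rw [ENNReal.mul_rpow_of_nonneg _ _ (by norm_num), hsq hu]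
          norm_cast
      _ ≤ _ := setLIntegral_le_lintegral _ _
  have e3 : ∫⁻ u in Ici a, g u ^ (2 : ℝ) ≤ ENNReal.ofReal ((3 * N) ^ 8) := by
    have hint : IntegrableOn (fun u : ℝ => u ^ (-2 : ℝ)) (Ioi a) :=
      integrableOn_Ioi_rpow_of_lt (by norm_num) ha0
    have hval : ∫ u in Ioi a, u ^ (-2 : ℝ) = 3 * N := by
      rw [integral_Ioi_rpow_of_lt (by norm_num) ha0, show (-2 : ℝ) + 1 = -1 by norm_num,
        Real.rpow_neg_one, ha]
      field_simp
    calc ∫⁻ u in Ici a, g u ^ (2 : ℝ) = ∫⁻ u in Ioi a, g u ^ (2 : ℝ) := by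
          rw [restrict_Ioi_eq_restrict_Ici]
      _ ≤ ∫⁻ u in Ioi a, ENNReal.ofReal ((3 * N) ^ 7 * u ^ (-2 : ℝ)) := by
          refine setLIntegral_mono' measurableSet_Ioi fun u hu => ?_
          have hau : a < u := hu
          have hu : (0 : ℝ) < u := lt_trans ha0 hau
          simp only [hg]
          rw [ENNReal.ofReal_rpow_of_nonneg (by positivity) (by norm_num)]
          refine ENNReal.ofReal_le_ofReal ?_
          have h1 : (1 / u ^ 5 * u ^ ((1 + 2 * θ) / 2)) ^ (2 : ℝ) = u ^ (-7 + 2 * θ) * u ^ (-2 : ℝ) := by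
            rw [Real.mul_rpow (by positivity) (by positivity), ← Real.rpow_mul hu.le,
              ← Real.rpow_add hu]
            have : (1 / u ^ 5) ^ (2 : ℝ) = u ^ (-10 : ℝ) := by
              rw [one_div, ← Real.rpow_natCast u 5, ← Real.rpow_neg hu.le, ← Real.rpow_mul hu.le]
              norm_num
            rw [this, ← Real.rpow_add hu]
            congr 1
            ring
          rw [h1]
          refine mul_le_mul_of_nonneg_right ?_ (by positivity)
          calc u ^ (-7 + 2 * θ) ≤ a ^ (-7 + 2 * θ) :=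
                Real.rpow_le_rpow_of_nonpos ha0 hau.le (by linarith)
            _ ≤ a ^ (-7 : ℝ) := Real.rpow_le_rpow_of_exponent_ge ha0 ha1 (by linarith)
            _ = (3 * N) ^ 7 := by
                rw [ha, one_div, Real.inv_rpow (by positivity), Real.rpow_neg (by positivity),
                  inv_inv]
                norm_cast
      _ = ENNReal.ofReal ((3 * N) ^ 7 * (3 * N)) := by
          rw [← ofReal_integral_eq_lintegral_ofReal (hint.const_mul _)]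
          · rw [integral_const_mul, hval]
          · filter_upwards [ae_restrict_mem measurableSet_Ioi] with u hu
            have hu : (0 : ℝ) < u := lt_trans ha0 hu
            positivity
      _ = _ := by rw [← pow_succ]
  rw [e1] at hcs
  refine hcs.trans ?_
  refine mul_le_mul' (ENNReal.rpow_le_rpow e2 (by norm_num)) ?_
  refine (ENNReal.rpow_le_rpow e3 (by norm_num)).trans (le_of_eq ?_)
  rw [ENNReal.ofReal_rpow_of_nonneg (by positivity) (by norm_num)]
  congr 1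
  rw [← Real.sqrt_eq_rpow]
  rw [show (3 * N) ^ 8 = ((3 * N) ^ 4) ^ 2 by ring, Real.sqrt_sq (by positivity)]

lemma good_odd {t : ℕ} (ht : Good t) : Odd t := by
  rw [← Nat.not_even_iff_odd, even_iff_two_dvd]
  intro h
  exact (ht.2 2 Nat.prime_two h).1 rfl

lemma good_even {t : ℕ} (ht : Good t) (p : ℕ) (hp : p.Prime) (hp3 : p % 4 = 3) :
    Even (t.factorization p) := by
  by_cases h : p ∣ t
  · exact (ht.2 p hp h).2 hp3
  · rw [Nat.factorization_eq_zero_of_not_dvd h]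
    exact Even.zero

/-- **Module D**: the bilinear bound. -/
theorem pfTwL (hC : StCoef) (hP : StPois) (hK : StKer) (hConv : StConv) (hFrac : StFrac)
    (hDiv : StDiv) (hDec : StDecII) (hWts : StWts) (hJs : StJs) : StTwL := by
  obtain ⟨C₁, hC₁, A₁, hS⟩ := SjW hC hK hConv hFrac hDiv hDec hWts
  obtain ⟨C₂, hC₂, B, hJ⟩ := hJs A₁
  obtain ⟨C₃, hC₃, hT⟩ := tail_bound hC hK
  set Q : ℝ := 32 * (C₁ * 8 ^ A₁) * C₂ * 64 ^ 9 + 32 * C₃ * 6561 with hQ
  have hQ1 : 1 ≤ Q := by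
    have h1 : (1 : ℝ) ≤ 8 ^ A₁ := one_le_pow₀ (by norm_num)
    have h2 : 0 ≤ 32 * (C₁ * 8 ^ A₁) * C₂ * 64 ^ 9 := by positivity
    nlinarith
  refine ⟨Q, hQ1, A₁ + B + 9, ?_⟩
  intro L H N t hL hH hHL hN hNL hgood htL h₁ h₂ hh₁ hh₂ h₁0 h₂0
  have ht0 : t ≠ 0 := hgood.1
  have ht1 : (1 : ℝ) ≤ t := by exact_mod_cast Nat.pos_of_ne_zero ht0
  have ht' : (0 : ℝ) < t := by linarith
  have hN0 : 0 < N := by linarith
  have hH0 : 0 < H := by linarith
  have hL0 : 0 < L := by linarith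
  have ha0 : 0 < 1 / (3 * N) := by positivity
  have z₁ : ∀ u ≤ 0, h₁ u = 0 := fun u hu => h₁0 u (lt_of_le_of_lt hu ha0)
  have z₂ : ∀ u ≤ 0, h₂ u = 0 := fun u hu => h₂0 u (lt_of_le_of_lt hu ha0)
  set θ : ℝ := 1 / (8 * L) with hθdef
  have hθ : 0 < θ := by positivity
  have hθ8 : θ ≤ 1 / 8 := by
    rw [hθdef]
    apply one_div_le_one_div_of_le (by norm_num)
    linarith
  have hθ1 : 1 / θ = 8 * L := by rw [hθdef, one_div_one_div]
  set Λ : ℝ := 64 * L with hΛ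
  have hΛ1 : 1 ≤ Λ := by linarith
  set M : ℝ := t * N ^ 2 * Λ ^ 17 with hM
  have hM0 : 0 < M := by positivity
  set Z : ℕ := ⌊M / H⌋₊ with hZ
  have hlogM : Real.log M ≤ 1000 * L := by
    have h64 : Real.log 64 ≤ 6 := by
      rw [show (64 : ℝ) = 2 ^ 6 by norm_num, Real.log_pow]
      have := Real.log_two_lt_d9
      push_cast
      linarith
    have hlogL : Real.log L ≤ L := (Real.log_le_sub_one_of_pos hL0).trans (by linarith)
    rw [hM, Real.log_mul (by positivity) (by positivity), Real.log_mul (by positivity)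
      (by positivity), Real.log_pow, Real.log_pow, hΛ, Real.log_mul (by norm_num) hL0.ne']
    push_cast
    nlinarith
  set D : ℝ≥0∞ := ENNReal.ofReal (C₁ * (1 / θ) ^ A₁ * dv t ^ A₁) * (Nh θ h₁ * Nh θ h₂) with hD
  set W : ℕ → ℝ≥0∞ := fun j => ∫⁻ p : ℝ × ℝ, h₁ p.1 * h₂ p.2 * ‖Sj H t j p.1 p.2‖ₑ with hW
  have hmain : ∑ j ∈ Finset.Icc 1 Z, W j ≤ D * ENNReal.ofReal (C₂ * L ^ B * √M / H) := by
    refine hJ L H M hL hH hM0 hlogM W D ?_
    intro j₁ j₂ hj₁ hj₂
    exact hS θ hθ hθ8 H t j₁ j₂ hH0 ht0 hj₁ hj₂ h₁ h₂ hh₁ hh₂ z₁ z₂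
  have hZH : t * N ^ 2 * Λ ^ 17 ≤ (Z + 1) * H := by
    have h1 := Nat.lt_floor_add_one (M / H)
    rw [← hM]
    rw [div_lt_iff₀ hH0] at h1
    exact h1.le
  have m2 : Measurable fun p : ℝ × ℝ => h₁ p.1 := hh₁.comp measurable_fst
  have m3 : Measurable fun p : ℝ × ℝ => h₂ p.2 := hh₂.comp measurable_snd
  set F : ℝ := C₃ * Real.exp (-Λ / 4) * (t ^ 3 * N ^ 4) with hF
  have hF0 : 0 ≤ F := by positivity
  have htail : ∫⁻ p : ℝ × ℝ, h₁ p.1 * h₂ p.2 *
      ENNReal.ofReal (F * ((1 / p.1 ^ 5) * (1 / p.2 ^ 5))) ≤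
      ENNReal.ofReal (F * ((3 * N) ^ 4 * (3 * N) ^ 4)) * (Nh θ h₁ * Nh θ h₂) := by
    have e1 : ∀ p : ℝ × ℝ, h₁ p.1 * h₂ p.2 *
        ENNReal.ofReal (F * ((1 / p.1 ^ 5) * (1 / p.2 ^ 5))) = ENNReal.ofReal F *
        ((h₁ p.1 * ENNReal.ofReal (1 / p.1 ^ 5)) * (h₂ p.2 * ENNReal.ofReal (1 / p.2 ^ 5))) := by
      intro p
      by_cases hp : p.1 ≤ 0
      · rw [z₁ _ hp]; simp
      rw [not_le] at hp
      rw [ENNReal.ofReal_mul (p := F) hF0, ENNReal.ofReal_mul (p := 1 / p.1 ^ 5) (by positivity)]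
      ring
    rw [lintegral_congr e1, lintegral_const_mul' _ _ ENNReal.ofReal_ne_top,
      Measure.volume_eq_prod]
    have q1 : Measurable fun u : ℝ => h₁ u * ENNReal.ofReal (1 / u ^ 5) :=
      hh₁.mul (Measurable.ennreal_ofReal (measurable_const.div (measurable_id.pow_const 5)))
    have q2 : Measurable fun u : ℝ => h₂ u * ENNReal.ofReal (1 / u ^ 5) :=
      hh₂.mul (Measurable.ennreal_ofReal (measurable_const.div (measurable_id.pow_const 5)))
    rw [lintegral_prod_mul (f := fun u : ℝ => h₁ u * ENNReal.ofReal (1 / u ^ 5))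
      (g := fun u : ℝ => h₂ u * ENNReal.ofReal (1 / u ^ 5)) q1.aemeasurable q2.aemeasurable]
    have b1 := tail_one hθ hθ8 hN hh₁ h₁0
    have b2 := tail_one hθ hθ8 hN hh₂ h₂0
    calc ENNReal.ofReal F * ((∫⁻ u : ℝ, h₁ u * ENNReal.ofReal (1 / u ^ 5)) *
          ∫⁻ u : ℝ, h₂ u * ENNReal.ofReal (1 / u ^ 5))
        ≤ ENNReal.ofReal F * ((Nh θ h₁ * ENNReal.ofReal ((3 * N) ^ 4)) *
          (Nh θ h₂ * ENNReal.ofReal ((3 * N) ^ 4))) := by gcongr
      _ = ENNReal.ofReal F * (ENNReal.ofReal ((3 * N) ^ 4) * ENNReal.ofReal ((3 * N) ^ 4)) *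
          (Nh θ h₁ * Nh θ h₂) := by ring
      _ = _ := by rw [← ENNReal.ofReal_mul (by positivity), ← ENNReal.ofReal_mul hF0]
  have hpt : ∀ p : ℝ × ℝ, h₁ p.1 * h₂ p.2 * ‖Toff H t p.1 p.2‖ₑ ≤
      ENNReal.ofReal (32 * H) * (∑ j ∈ Finset.range Z,
        h₁ p.1 * h₂ p.2 * ‖Sj H t (j + 1) p.1 p.2‖ₑ +
        h₁ p.1 * h₂ p.2 * ENNReal.ofReal (F * ((1 / p.1 ^ 5) * (1 / p.2 ^ 5)))) := by
    intro p
    by_cases hp1 : p.1 < 1 / (3 * N)
    · rw [h₁0 _ hp1]; simp
    by_cases hp2 : p.2 < 1 / (3 * N)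
    · rw [h₂0 _ hp2]; simp
    rw [not_lt] at hp1 hp2
    have hp1' : 0 < p.1 := lt_of_lt_of_le ha0 hp1
    have hp2' : 0 < p.2 := lt_of_lt_of_le ha0 hp2
    rw [toff_split hC hP hK hH0 (good_odd hgood) (good_even hgood) Z hp1' hp2', enorm_mul]
    have e1 : ‖32 * H‖ₑ = ENNReal.ofReal (32 * H) := by
      rw [Real.enorm_eq_ofReal_abs, abs_of_nonneg (by positivity)]
    have e2 : ‖∑ j ∈ Finset.range Z, Sj H t (j + 1) p.1 p.2 + Tt H t Z p.1 p.2‖ₑ ≤
        ∑ j ∈ Finset.range Z, ‖Sj H t (j + 1) p.1 p.2‖ₑ +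
          ENNReal.ofReal (F * ((1 / p.1 ^ 5) * (1 / p.2 ^ 5))) := by
      refine (enorm_add_le _ _).trans (add_le_add (enorm_sum_le _ _) ?_)
      rw [Real.enorm_eq_ofReal_abs]
      exact ENNReal.ofReal_le_ofReal (hT H Λ N p.1 p.2 t Z hH hΛ1 hN ht0 hp1 hp2 hZH)
    rw [e1]
    calc h₁ p.1 * h₂ p.2 * (ENNReal.ofReal (32 * H) *
          ‖∑ j ∈ Finset.range Z, Sj H t (j + 1) p.1 p.2 + Tt H t Z p.1 p.2‖ₑ)
        ≤ h₁ p.1 * h₂ p.2 * (ENNReal.ofReal (32 * H) *
          (∑ j ∈ Finset.range Z, ‖Sj H t (j + 1) p.1 p.2‖ₑ +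
          ENNReal.ofReal (F * ((1 / p.1 ^ 5) * (1 / p.2 ^ 5))))) := by gcongr
      _ = _ := by
          rw [← Finset.mul_sum]
          ring
  calc ∫⁻ p : ℝ × ℝ, h₁ p.1 * h₂ p.2 * ‖Toff H t p.1 p.2‖ₑ
      ≤ ∫⁻ p : ℝ × ℝ, ENNReal.ofReal (32 * H) * (∑ j ∈ Finset.range Z,
        h₁ p.1 * h₂ p.2 * ‖Sj H t (j + 1) p.1 p.2‖ₑ +
        h₁ p.1 * h₂ p.2 * ENNReal.ofReal (F * ((1 / p.1 ^ 5) * (1 / p.2 ^ 5)))) :=
        lintegral_mono hpt
    _ = ENNReal.ofReal (32 * H) * (∑ j ∈ Finset.range Z, W (j + 1) +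
        ∫⁻ p : ℝ × ℝ, h₁ p.1 * h₂ p.2 *
          ENNReal.ofReal (F * ((1 / p.1 ^ 5) * (1 / p.2 ^ 5)))) := by
        rw [lintegral_const_mul' _ _ ENNReal.ofReal_ne_top, lintegral_add_left,
          lintegral_finsetSum]
        · exact fun j _ => (m2.mul m3).mul (measurable_Sj H t (j + 1)).enorm
        · exact Finset.measurable_sum _ fun j _ =>
            (m2.mul m3).mul (measurable_Sj H t (j + 1)).enorm
    _ ≤ ENNReal.ofReal (32 * H) * (D * ENNReal.ofReal (C₂ * L ^ B * √M / H) +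
        ENNReal.ofReal (F * ((3 * N) ^ 4 * (3 * N) ^ 4)) * (Nh θ h₁ * Nh θ h₂)) := by
        refine mul_le_mul' le_rfl (add_le_add ?_ htail)
        refine le_trans (le_of_eq ?_) hmain
        rw [Finset.range_eq_Ico, Finset.sum_Ico_add' (fun j => W j) 0 Z 1]
        refine Finset.sum_congr ?_ fun _ _ => rfl
        ext x
        simp only [Finset.mem_Ico, Finset.mem_Icc]
        omega
    _ = ENNReal.ofReal (32 * H * (C₁ * (1 / θ) ^ A₁ * dv t ^ A₁ * (C₂ * L ^ B * √M / H)) +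
          32 * H * (F * ((3 * N) ^ 4 * (3 * N) ^ 4))) * (Nh θ h₁ * Nh θ h₂) := by
        have hdt := one_le_dv ht0
        have p1 : 0 ≤ C₁ * (1 / θ) ^ A₁ * dv t ^ A₁ := by positivity
        have p2 : 0 ≤ C₂ * L ^ B * √M / H := by positivity
        rw [ENNReal.ofReal_add (by positivity) (by positivity),
          ENNReal.ofReal_mul (p := 32 * H) (q := C₁ * (1 / θ) ^ A₁ * dv t ^ A₁ *
            (C₂ * L ^ B * √M / H)) (by positivity), ENNReal.ofReal_mul
            (p := C₁ * (1 / θ) ^ A₁ * dv t ^ A₁) p1,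
          ENNReal.ofReal_mul (p := 32 * H) (q := F * ((3 * N) ^ 4 * (3 * N) ^ 4)) (by positivity),
          hD]
        ring
    _ ≤ ENNReal.ofReal (Q * L ^ (A₁ + B + 9) * √(t : ℝ) * dv t ^ (A₁ + B + 9) * N) *
        (Nh θ h₁ * Nh θ h₂) := by
        refine mul_le_mul' (ENNReal.ofReal_le_ofReal ?_) le_rfl
        have hdt := one_le_dv ht0
        have hst : 1 ≤ √(t : ℝ) := Real.one_le_sqrt.2 ht1
        set S : ℝ := L ^ (A₁ + B + 9) * √(t : ℝ) * dv t ^ (A₁ + B + 9) * N with hS'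
        have hS0 : 0 ≤ S := by positivity
        have i1 : 32 * H * (C₁ * (1 / θ) ^ A₁ * dv t ^ A₁ * (C₂ * L ^ B * √M / H)) ≤
            (32 * (C₁ * 8 ^ A₁) * C₂ * 64 ^ 9) * S := by
          have hsM : √M ≤ √(t : ℝ) * N * (64 ^ 9 * L ^ 9) := by
            rw [hM, Real.sqrt_mul (by positivity), Real.sqrt_mul (by positivity),
              Real.sqrt_sq hN0.le]
            have h1 : √(Λ ^ 17) ≤ Λ ^ 9 := by
              rw [Real.sqrt_le_left (by positivity), ← pow_mul]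
              exact pow_le_pow_right₀ hΛ1 (by norm_num)
            have h2 : Λ ^ 9 = 64 ^ 9 * L ^ 9 := by rw [hΛ, mul_pow]
            rw [← h2]
            gcongr
          have hdd : dv t ^ A₁ ≤ dv t ^ (A₁ + B + 9) := pow_le_pow_right₀ hdt (by omega)
          calc 32 * H * (C₁ * (1 / θ) ^ A₁ * dv t ^ A₁ * (C₂ * L ^ B * √M / H))
              = 32 * C₁ * (8 * L) ^ A₁ * C₂ * L ^ B * dv t ^ A₁ * √M := by
                rw [hθ1]; field_simp
            _ ≤ 32 * C₁ * (8 * L) ^ A₁ * C₂ * L ^ B * dv t ^ (A₁ + B + 9) *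
                (√(t : ℝ) * N * (64 ^ 9 * L ^ 9)) := by gcongr
            _ = _ := by rw [hS', mul_pow, pow_add, pow_add]; ring
        have i2 : 32 * H * (F * ((3 * N) ^ 4 * (3 * N) ^ 4)) ≤ (32 * C₃ * 6561) * S := by
          have hexpH : H ≤ Real.exp L := by
            calc H = Real.exp (Real.log H) := (Real.exp_log hH0).symm
              _ ≤ _ := Real.exp_le_exp.2 hHL
          have hexpN : N ≤ Real.exp L := by
            calc N = Real.exp (Real.log N) := (Real.exp_log hN0).symm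
              _ ≤ _ := Real.exp_le_exp.2 hNL
          have hexpt : (t : ℝ) ≤ Real.exp L := by
            calc (t : ℝ) = Real.exp (Real.log t) := (Real.exp_log ht').symm
              _ ≤ _ := Real.exp_le_exp.2 htL
          have hS1 : 1 ≤ S := by
            rw [hS']
            have q1 : 1 ≤ L ^ (A₁ + B + 9) := one_le_pow₀ hL
            have q2 : 1 ≤ dv t ^ (A₁ + B + 9) := one_le_pow₀ hdt
            calc (1 : ℝ) = 1 * 1 * 1 * 1 := by norm_num
              _ ≤ L ^ (A₁ + B + 9) * √(t : ℝ) * dv t ^ (A₁ + B + 9) * N := by gcongr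
          have hprod : H * t ^ 3 * N ^ 12 * Real.exp (-Λ / 4) ≤ 1 := by
            calc H * t ^ 3 * N ^ 12 * Real.exp (-Λ / 4)
                ≤ Real.exp L * Real.exp L ^ 3 * Real.exp L ^ 12 * Real.exp (-Λ / 4) := by gcongr
              _ = Real.exp (L + 3 * L + 12 * L + -Λ / 4) := by
                  rw [← Real.exp_nat_mul, ← Real.exp_nat_mul, ← Real.exp_add, ← Real.exp_add,
                    ← Real.exp_add]
                  norm_num
              _ = 1 := by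
                  rw [hΛ, show L + 3 * L + 12 * L + -(64 * L) / 4 = 0 by ring, Real.exp_zero]
          calc 32 * H * (F * ((3 * N) ^ 4 * (3 * N) ^ 4))
              = (32 * C₃ * 6561) * (H * t ^ 3 * N ^ 12 * Real.exp (-Λ / 4)) := by
                rw [hF]; ring
            _ ≤ (32 * C₃ * 6561) * 1 := by gcongr
            _ ≤ (32 * C₃ * 6561) * S := by gcongr
        calc _ ≤ (32 * (C₁ * 8 ^ A₁) * C₂ * 64 ^ 9) * S + (32 * C₃ * 6561) * S := add_le_add i1 i2
          _ = Q * S := by rw [hQ]; ring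
          _ = _ := by rw [hS']; ring

end Tw
end P004
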