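import Vale.Agent.P004.H253.Tw8
import Vale.Agent.P004.H353.Js
import Vale.Agent.P004.H353.Wts
import Vale.Agent.P004.H3.DecII
import Vale.Agent.P004.H3.Full
import Vale.Agent.P004.H628.Tw2
import Vale.Agent.P004.A1
import Vale.Agent.P004.B
import Vale.Agent.P004.C
import Vale.Agent.P004.C0
import Vale.Agent.P004.D
import Vale.Agent.P004.E
import Vale.Agent.P004.F
import Vale.Agent.P004.G

/-!
# P004, module D: the twisted second moment (`StTw2`), all inputs assembled
-/

namespace P004

theorem Tw.twL (hFull : StFull) : Tw.StTwL :=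
  have hC : StCoef := pfStCoef
  have hD : StDiv := pfDiv
  Tw.pfTwL hC (pfPois pfTw) pfKer (pfConv hC hD) (pfStFrac hC) hD Tw.pfDecII (Tw.pfWts hC hD)
    (Tw.pfJs hFull hD)

theorem tw2 (hFull : StFull) : StTw2 := pfTw2 pfStCoef (Tw.twL hFull)

end P004
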